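import Vale.Agent.P097.H697.K1b
import Vale.Agent.P097.H166.LawH

/-! # P097 / ALG-L1, conclusion -/

set_option linter.all false

namespace Vale.Agent.P097.H697

open Vale.Agent.P097.NZ Vale.Agent.P097.Alg

/-- ALG-L1 from `RootA` and `LawH0` -/
theorem pl1' (A : RootA) (lh : LawH0) : PL1 := pl1_of A lh k1

/-- ALG-L1: at an end of exponent `-3/2` there is no term `(ψ - ψ₀) ^ β`, `0 < β < 1` -/
theorem pl1 : PL1 := pl1' H65.rootA H166.lawH0

end Vale.Agent.P097.H697
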