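import Vale.Agent.P097.H402.Alg.Defs
import Vale.Agent.P097.H65.NZA

/-! # P097 / ALG-L1: division lemma and the homogeneous law -/

set_option linter.all false

open Complex Metric Filter Topology Set

namespace Vale.Agent.P097.H697

open Vale.Agent.P097.NZ

/-- division by a power of the second variable -/
theorem fac2 {f : ℂ × ℂ → ℂ} (hf : AnalyticAt ℂ f (0, 0)) (m : ℕ)
    (h0 : ∀ k < m, ∀ᶠ z in 𝓝 (0 : ℂ), tc f k z = 0) :
    ∃ K : ℂ × ℂ → ℂ, AnalyticAt ℂ K (0, 0) ∧ (∀ᶠ p in 𝓝 ((0, 0) : ℂ × ℂ), f p = p.2 ^ m * K p) ∧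
      ∀ z, K (z, 0) = tc f m z := by
  obtain ⟨C, B, r, hB, hr, hrB, h1⟩ := tc_bound hf
  set u : ℕ → ℂ → ℂ := fun k z => tc f (k + m) z with hu
  have hz : ∀ᶠ z in 𝓝 (0 : ℂ), ∀ k < m, tc f k z = 0 := by
    have : ∀ᶠ z in 𝓝 (0 : ℂ), ∀ k ∈ Finset.range m, tc f k z = 0 :=
      (Finset.eventually_all _).2 fun k hk => h0 k (Finset.mem_range.1 hk)
    filter_upwards [this] with z hz k hk
    exact hz k (Finset.mem_range.2 hk)
  refine ⟨Sm u, ?_, ?_, ?_⟩
  · refine analyticAt_Sm ?_ ⟨C * B ^ m, B, r, hB, hr, fun z' hz' k => ?_⟩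
    · filter_upwards [eventually_analyticAt_tc hf] with z' hz' k
      exact hz' (k + m)
    · have := (h1 z' hz').1 (k + m)
      calc ‖u k z'‖ ≤ C * B ^ (k + m) := this
        _ = C * B ^ m * B ^ k := by rw [pow_add]; ring
  · obtain ⟨s, hs, h2⟩ := Metric.eventually_nhds_iff_ball.1 hz
    refine eventually_of_polydisc (lt_min hr hs) hr fun z' hz' δ hδ => ?_
    have e1 := (h1 z' (ball_subset_ball (min_le_left _ _) hz')).2 δ hδ
    have e2 := h2 z' (ball_subset_ball (min_le_right _ _) hz')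
    have e3 := (hasSum_nat_add_iff' m).2 e1
    have e4 : ∑ k ∈ Finset.range m, tc f k z' * δ ^ k = 0 :=
      Finset.sum_eq_zero fun k hk => by rw [e2 k (Finset.mem_range.1 hk), zero_mul]
    rw [e4, sub_zero] at e3
    have e5 : f (z', δ) = ∑' k : ℕ, tc f (k + m) z' * δ ^ (k + m) := e3.tsum_eq.symm
    rw [e5]
    simp only [Sm, hu]
    rw [← tsum_mul_left]
    congr 1
    funext k
    rw [pow_add]
    ring
  · intro z
    simp only [Sm, hu]
    rw [tsum_eq_single 0]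
    · simp
    · intro k hk
      simp [hk]

end Vale.Agent.P097.H697
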