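import Vale.Agent.P097.H787.Kill

/-! # P097 / ALG-L1: continuation of the solution of `Φ (s) = G (s) + Φ (s + 1)` -/

set_option linter.all false

open Complex Metric Filter Topology Set

namespace Vale.Agent.P097.H697

/-- finite sums of translates -/
noncomputable def Pn (Φ G : ℂ → ℂ) (n : ℕ) (s : ℂ) : ℂ :=
  ∑ k ∈ Finset.range n, G (s + k) + Φ (s + n)

variable {R : ℝ} {Φ G : ℂ → ℂ}

theorem Pn_succ (rel : ∀ s : ℂ, R < s.re → Φ s = G s + Φ (s + 1)) {n : ℕ} {s : ℂ}
    (h : R < s.re + n) : Pn Φ G (n + 1) s = Pn Φ G n s := by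
  have h1 := rel (s + n) (by simpa using h)
  rw [Pn, Pn, Finset.sum_range_succ, h1]
  push_cast
  rw [← add_assoc s]
  ring

theorem Pn_add (rel : ∀ s : ℂ, R < s.re → Φ s = G s + Φ (s + 1)) {n : ℕ} {s : ℂ}
    (h : R < s.re + n) (m : ℕ) : Pn Φ G (n + m) s = Pn Φ G n s := by
  induction m with
  | zero => rfl
  | succ m ih =>
    rw [← add_assoc, Pn_succ rel (by
      push_cast
      have : (0 : ℝ) ≤ m := Nat.cast_nonneg m
      linarith), ih]

theorem Pn_eq (rel : ∀ s : ℂ, R < s.re → Φ s = G s + Φ (s + 1)) {n m : ℕ} {s : ℂ}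
    (h : R < s.re + n) (h' : R < s.re + m) : Pn Φ G n s = Pn Φ G m s := by
  rcases le_total n m with h1 | h1
  · obtain ⟨k, rfl⟩ := Nat.exists_eq_add_of_le h1
    exact (Pn_add rel h k).symm
  · obtain ⟨k, rfl⟩ := Nat.exists_eq_add_of_le h1
    exact Pn_add rel h' k

/-- continuation to the slit plane -/
theorem ext_sol (hΦ : ∀ s : ℂ, R < s.re → DifferentiableAt ℂ Φ s)
    (hG : DifferentiableOn ℂ G slitPlane)
    (rel : ∀ s : ℂ, R < s.re → Φ s = G s + Φ (s + 1)) :
    ∃ P : ℂ → ℂ, DifferentiableOn ℂ P slitPlane ∧ (∀ s, P s = G s + P (s + 1)) ∧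
      ∀ s : ℂ, R < s.re → P s = Φ s := by
  have hn : ∀ s : ℂ, ∃ n : ℕ, R < s.re + n := by
    intro s
    obtain ⟨n, hn⟩ := exists_nat_gt (R - s.re)
    exact ⟨n, by linarith⟩
  choose ν hν using hn
  have key : ∀ (s : ℂ) (n : ℕ), R < s.re + n → Pn Φ G (ν s) s = Pn Φ G n s := fun s n h =>
    Pn_eq rel (hν s) h
  refine ⟨fun s => Pn Φ G (ν s) s, ?_, ?_, ?_⟩
  · intro s hs
    apply DifferentiableAt.differentiableWithinAt
    have hd : DifferentiableAt ℂ (Pn Φ G (ν s)) s := by
      unfold Pn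
      refine DifferentiableAt.add ?_ ?_
      · refine DifferentiableAt.fun_sum fun i _ => ?_
        have h3 : DifferentiableAt ℂ G (s + i) := by
          have h4 := H787.add_mem_slit hs (x := i) (Nat.cast_nonneg i)
          rw [ofReal_natCast] at h4
          exact hG.differentiableAt (isOpen_slitPlane.mem_nhds h4)
        have h4 : DifferentiableAt ℂ (fun s : ℂ => s + i) s := by fun_prop
        exact DifferentiableAt.comp s h3 h4
      · have h3 : DifferentiableAt ℂ Φ (s + ν s) := hΦ _ (by simpa using hν s)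
        have h4 : DifferentiableAt ℂ (fun z : ℂ => z + ν s) s := by fun_prop
        exact DifferentiableAt.comp s h3 h4
    refine hd.congr_of_eventuallyEq ?_
    have h1 : ∀ᶠ z : ℂ in 𝓝 s, R < z.re + ν s := by
      have : ContinuousAt (fun z : ℂ => z.re + ν s) s := by fun_prop
      exact this.eventually (lt_mem_nhds (hν s))
    filter_upwards [h1] with z hz
    exact key z _ hz
  · intro s
    obtain ⟨n, hn⟩ := exists_nat_gt (R - s.re)
    have h1 : R < s.re + ((n + 1 : ℕ) : ℝ) := by push_cast; linarith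
    have h2 : R < (s + 1).re + n := by
      rw [add_re, one_re]
      linarith
    show Pn Φ G (ν s) s = G s + Pn Φ G (ν (s + 1)) (s + 1)
    rw [key s _ h1, key (s + 1) _ h2, Pn, Pn, Finset.sum_range_succ']
    push_cast
    rw [add_zero]
    have h3 : ∀ k : ℕ, s + ((k : ℂ) + 1) = s + 1 + k := fun k => by ring
    simp only [h3]
    ring
  · intro s hs
    show Pn Φ G (ν s) s = Φ s
    rw [key s 0 (by simpa using hs), Pn]
    simp

end Vale.Agent.P097.H697
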