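import Vale.Agent.P097.H697.Lin2

/-! # P097 / ALG-L1: `PL1` from the law `LawH0` and the one-variable kill `K1` -/

set_option linter.all false

open Complex Metric Filter Topology Set

namespace Vale.Agent.P097.H697

open Vale.Agent.P097.NZ Vale.Agent.P097.Hol Vale.Agent.P097.Alg

/-- the one-variable kill: the linearised law at an end of exponent `-3/2` has no odd solution -/
def K1 : Prop := ∀ (b : ℝ) (f : ℂ → ℂ), 0 < b → b < 2 → AnalyticAt ℂ f 0 →
  (∀ᶠ y in 𝓝 (0 : ℂ), f (-y) = -f y) →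
  (∀ᶠ y in 𝓝 (0 : ℂ), f y - (1 + y) ^ ((b : ℂ) + 3) * f (y / (1 + y)) =
    -(y ^ 3 * (2 + y) * Kint (fun v => (1 + y * v) ^ (((b : ℂ) - 3) / 2)) (2 + y))) → False

/-- the homogeneous law, in terms of derivatives -/
theorem hl' {b : ℝ} {f : ℂ → ℂ} (hf : AnalyticAt ℂ f 0)
    (hlaw : ∀ᶠ y in 𝓝 (0 : ℂ), f y = (1 + y) ^ ((b : ℂ) + 3) * f (y / (1 + y))) :
    (∀ᶠ y in 𝓝 (0 : ℂ), f y = 0) ∨ ∃ m : ℕ, iteratedDeriv m f 0 ≠ 0 ∧ (m : ℝ) = b + 3 := by
  rcases hl hf hlaw with h | ⟨m, g, hg, hg0, hfg, hm⟩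
  · exact Or.inl h
  · refine Or.inr ⟨m, ?_, hm⟩
    have h1 : analyticOrderAt f 0 = m := (hf.analyticOrderAt_eq_natCast).2
      ⟨g, hg, hg0, by simpa [smul_eq_mul] using hfg⟩
    exact ((analyticOrderAt_eq_nat_iff_iteratedDeriv_eq_zero hf).1 h1).2

/-- even derivatives of an odd germ vanish -/
theorem odd_deriv {f : ℂ → ℂ} (ho : ∀ᶠ y in 𝓝 (0 : ℂ), f (-y) = -f y) {m : ℕ} (hm : Even m) :
    iteratedDeriv m f 0 = 0 := by
  have h1 : (fun y => f (-y)) =ᶠ[𝓝 0] fun y => -f y := ho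
  have h2 := h1.iteratedDeriv_eq m
  rw [iteratedDeriv_comp_neg, neg_zero, hm.neg_one_pow, one_smul] at h2
  rw [iteratedDeriv_fun_neg] at h2
  have h3 : 2 * iteratedDeriv m f 0 = 0 := by linear_combination h2
  simpa using h3

/-- there is no odd homogeneous solution for `0 < b < 2` -/
theorem hl_odd {b : ℝ} (hb : 0 < b) (hb2 : b < 2) {f : ℂ → ℂ} (hf : AnalyticAt ℂ f 0)
    (ho : ∀ᶠ y in 𝓝 (0 : ℂ), f (-y) = -f y)
    (hlaw : ∀ᶠ y in 𝓝 (0 : ℂ), f y = (1 + y) ^ ((b : ℂ) + 3) * f (y / (1 + y))) :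
    ∀ᶠ y in 𝓝 (0 : ℂ), f y = 0 := by
  rcases hl' hf hlaw with h | ⟨m, hm, hmb⟩
  · exact h
  · exfalso
    have h1 : (3 : ℝ) < m := by linarith
    have h2 : (m : ℝ) < 5 := by linarith
    have h3 : 3 < m := by exact_mod_cast h1
    have h4 : m < 5 := by exact_mod_cast h2
    have h5 : m = 4 := by omega
    rw [h5] at hm
    exact hm (odd_deriv ho (by decide))

/-- the base: `H(0, y) = (2/3) y³` -/
theorem base {N : ℕ} {R : ℂ → ℂ} (A : RootA) (hN : 1 ≤ N) (hR : AnalyticAt ℂ R 0) (h0 : R 0 ≠ 0)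
    {H : ℂ × ℂ → ℂ} (hH : AnalyticAt ℂ H (0, 0))
    (h3 : iteratedDeriv 3 (fun y => H (0, y)) 0 = 4)
    (hL : ∀ᶠ p in 𝓝 ((0, 0) : ℂ × ℂ), rr N (-3 / 2) R p ^ (3 / 2 : ℂ) *
      (R (Te N (-3 / 2) R p).1 * H (Te N (-3 / 2) R p)) = R p.1 * H p) :
    ∀ᶠ y in 𝓝 (0 : ℂ), H (0, y) = 2 / 3 * y ^ 3 := by
  have hHa : AnalyticAt ℂ (fun y => H (0, y)) 0 := analyticAt_pair2 hH
  have hpa : AnalyticAt ℂ (fun y : ℂ => 2 / 3 * y ^ 3) 0 := by fun_prop
  have hfa : AnalyticAt ℂ (fun y : ℂ => H (0, y) - 2 / 3 * y ^ 3) 0 := hHa.sub hpa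
  have hlaw : ∀ᶠ y in 𝓝 (0 : ℂ), H (0, y) - 2 / 3 * y ^ 3 =
      (1 + y) ^ (((0 : ℝ) : ℂ) + 3) * (H (0, y / (1 + y)) - 2 / 3 * (y / (1 + y)) ^ 3) := by
    filter_upwards [ev_axis hL, re_base A hN hR h0,
      ball_mem_nhds (0 : ℂ) (by norm_num : (0 : ℝ) < 1 / 4)] with y g1 g2 g3
    rw [mem_ball_zero_iff] at g3
    have hy1 : ‖y‖ < 1 := by linarith
    have hne : (1 : ℂ) + y ≠ 0 := slitPlane_ne_zero (slit_of_norm hy1)
    have e1 : rr N (-3 / 2) R (0, y) = (1 + y) ^ 2 := by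
      simp only [rr]
      rw [g2]
      ring
    have e2 : Te N (-3 / 2) R (0, y) = (0, y / (1 + y)) := by
      rw [Te_eq]
      simp only
      rw [g2, zero_mul, one_add_mul]
      refine Prod.ext rfl ?_
      simp only
      field_simp
      ring
    rw [e1, e2, sq_cpow hy1] at g1
    simp only at g1
    have e3 : (2 : ℂ) * (3 / 2) = ((3 : ℕ) : ℂ) := by norm_num
    have e4 : (((0 : ℝ) : ℂ) + 3) = ((3 : ℕ) : ℂ) := by norm_num
    rw [e3, cpow_natCast] at g1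
    rw [e4, cpow_natCast]
    have g4 : H (0, y) = (1 + y) ^ 3 * H (0, y / (1 + y)) := by
      apply mul_left_cancel₀ h0
      rw [← g1]
      ring
    rw [g4]
    field_simp
  rcases hl' hfa hlaw with h | ⟨m, hm, hmb⟩
  · filter_upwards [h] with y hy
    linear_combination hy
  · exfalso
    have h5 : m = 3 := by
      have : (m : ℝ) = 3 := by linarith
      exact_mod_cast this
    apply hm
    rw [h5, iteratedDeriv_fun_sub hHa.contDiffAt hpa.contDiffAt, h3]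
    have h6 : iteratedDeriv 3 (fun y : ℂ => 2 / 3 * y ^ 3) 0 = 4 := by
      rw [iteratedDeriv_const_mul_field]
      have := @iteratedDeriv_fun_pow_zero ℂ _ 3 3
      rw [this]
      simp [Nat.factorial]
      norm_num
    rw [h6]
    ring

/-- the induction step -/
theorem step (A : RootA) (k1 : K1) {N i : ℕ} {R : ℂ → ℂ} (hi : 0 < i) (hiN : i < N)
    (hR : AnalyticAt ℂ R 0) (h0 : R 0 ≠ 0) {H : ℂ × ℂ → ℂ} (hH : AnalyticAt ℂ H (0, 0))
    (ho : ∀ᶠ p in 𝓝 ((0, 0) : ℂ × ℂ), H (p.1, -p.2) = -H p)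
    (hb : ∀ᶠ y in 𝓝 (0 : ℂ), H (0, y) = 2 / 3 * y ^ 3)
    (hL : ∀ᶠ p in 𝓝 ((0, 0) : ℂ × ℂ), rr N (-3 / 2) R p ^ (3 / 2 : ℂ) *
      (R (Te N (-3 / 2) R p).1 * H (Te N (-3 / 2) R p)) = R p.1 * H p)
    (ih1 : ∀ j, 0 < j → j < i → iteratedDeriv j R 0 = 0)
    (ih2 : ∀ j, 0 < j → j < i → ∀ᶠ y in 𝓝 (0 : ℂ),
      tc (fun q => R q.2 * H (q.2, q.1) - R 0 * H (0, q.1)) j y = 0) :
    iteratedDeriv i R 0 = 0 ∧ ∀ᶠ y in 𝓝 (0 : ℂ),
      tc (fun q => R q.2 * H (q.2, q.1) - R 0 * H (0, q.1)) i y = 0 := by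
  set F : ℂ × ℂ → ℂ := fun q => R q.2 * H (q.2, q.1) - R 0 * H (0, q.1) with hF
  have hNc : (N : ℂ) ≠ 0 := by
    have : N ≠ 0 := by omega
    exact_mod_cast this
  have hFa : AnalyticAt ℂ F (0, 0) := by
    have h1 : AnalyticAt ℂ (fun q : ℂ × ℂ => R q.2) (0, 0) := hR.comp_of_eq analyticAt_snd rfl
    have h2 : AnalyticAt ℂ (fun q : ℂ × ℂ => H (q.2, q.1)) (0, 0) :=
      hH.comp_of_eq (analyticAt_snd.prod analyticAt_fst) rfl
    have h3 : AnalyticAt ℂ (fun q : ℂ × ℂ => H (0, q.1)) (0, 0) :=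
      hH.comp_of_eq (analyticAt_const.prod analyticAt_fst) rfl
    exact (h1.mul h2).sub (analyticAt_const.mul h3)
  obtain ⟨Q, hQ, hFQ, hQ0⟩ := fac2 hFa i (by
    intro k hk
    rcases Nat.eq_zero_or_pos k with rfl | hk0
    · refine Eventually.of_forall fun z => ?_
      simp only [tc, hF, iteratedDeriv_zero, Nat.factorial_zero, Nat.cast_one, div_one]
      ring
    · exact ih2 k hk0 hk)
  -- division of `R`
  have hRa : AnalyticAt ℂ (fun p : ℂ × ℂ => R p.2 - R 0) (0, 0) :=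
    (hR.comp_of_eq analyticAt_snd rfl).sub analyticAt_const
  have htc : ∀ k, 0 < k → ∀ z, tc (fun p : ℂ × ℂ => R p.2 - R 0) k z =
      iteratedDeriv k R 0 / k.factorial := by
    intro k hk z
    rw [tc]
    congr 1
    have h1 : (fun δ : ℂ => R δ - R 0) = fun δ => -R 0 + R δ := by
      funext δ
      ring
    simp only
    rw [h1, iteratedDeriv_const_add hk]
  obtain ⟨K, hK, hRK, hK0⟩ := fac2 hRa i (by
    intro k hk
    rcases Nat.eq_zero_or_pos k with rfl | hk0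
    · refine Eventually.of_forall fun z => ?_
      simp only [tc, iteratedDeriv_zero, Nat.factorial_zero, Nat.cast_one, div_one]
      ring
    · refine Eventually.of_forall fun z => ?_
      rw [htc k hk0, ih1 k hk0 hk, zero_div])
  set S : ℂ → ℂ := fun ξ => K (0, ξ) with hS
  have hSa : AnalyticAt ℂ S 0 := analyticAt_pair2 hK
  have hRS : ∀ᶠ ξ in 𝓝 (0 : ℂ), R ξ = R 0 + ξ ^ i * S ξ := by
    filter_upwards [ev_axis hRK] with ξ h
    have h' : R ξ - R 0 = ξ ^ i * K (0, ξ) := h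
    show R ξ = R 0 + ξ ^ i * K (0, ξ)
    linear_combination h'
  have hS0 : S 0 = iteratedDeriv i R 0 / i.factorial := by
    show K (0, 0) = _
    rw [hK0, htc i hi]
  -- the linearised law
  have hLQ : ∀ᶠ p in 𝓝 ((0, 0) : ℂ × ℂ),
      R p.1 * H p = R 0 * (2 / 3) * p.2 ^ 3 + p.1 ^ i * Q (p.2, p.1) := by
    have h1 : Tendsto (fun p : ℂ × ℂ => (p.2, p.1)) (𝓝 (0, 0)) (𝓝 (0, 0)) := by
      have : Continuous (fun p : ℂ × ℂ => (p.2, p.1)) := by fun_prop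
      exact this.tendsto (0, 0)
    have h2 : Tendsto (fun p : ℂ × ℂ => p.2) (𝓝 ((0, 0) : ℂ × ℂ)) (𝓝 0) := by
      have : Continuous (fun p : ℂ × ℂ => p.2) := by fun_prop
      exact this.tendsto (0, 0)
    filter_upwards [h1.eventually hFQ, h2.eventually hb] with p g1 g2
    simp only [hF] at g1
    rw [g2] at g1
    linear_combination g1
  have hlin := lin (L := fun p => R p.1 * H p) A hi hiN hR h0 hSa hRS hQ hL hLQ
  set f : ℂ → ℂ := fun y => Q (y, 0) with hf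
  have hfa : AnalyticAt ℂ f 0 := analyticAt_pair hQ
  have hfo : ∀ᶠ y in 𝓝 (0 : ℂ), f (-y) = -f y := by
    have h1 : ∀ᶠ q in 𝓝 ((0, 0) : ℂ × ℂ), F (-q.1, q.2) = -F q := by
      have h2 : Tendsto (fun p : ℂ × ℂ => (p.2, p.1)) (𝓝 (0, 0)) (𝓝 (0, 0)) := by
        have : Continuous (fun p : ℂ × ℂ => (p.2, p.1)) := by fun_prop
        exact this.tendsto (0, 0)
      have h3 : Tendsto (fun p : ℂ × ℂ => ((0, p.1) : ℂ × ℂ)) (𝓝 (0, 0)) (𝓝 (0, 0)) := by
        have : Continuous (fun p : ℂ × ℂ => ((0, p.1) : ℂ × ℂ)) := by fun_prop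
        exact this.tendsto (0, 0)
      filter_upwards [h2.eventually ho, h3.eventually ho] with q g1 g2
      have g1' : H (q.2, -q.1) = -H (q.2, q.1) := g1
      have g2' : H (0, -q.1) = -H (0, q.1) := g2
      simp only [hF]
      rw [g1', g2']
      ring
    obtain ⟨r, hr, h4⟩ := exists_polydisc h1
    filter_upwards [ball_mem_nhds (0 : ℂ) hr] with y hy
    simp only [hf, hQ0, tc]
    have h5 : (fun δ => F (-y, δ)) =ᶠ[𝓝 0] fun δ => -F (y, δ) := by
      filter_upwards [ball_mem_nhds (0 : ℂ) hr] with δ hδ using h4 y hy δ hδ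
    rw [h5.iteratedDeriv_eq i, iteratedDeriv_fun_neg]
    ring
  have hiR : (0 : ℝ) < i := by exact_mod_cast hi
  have hNR : (0 : ℝ) < N := by
    have : 0 < N := by omega
    exact_mod_cast this
  have hb0 : (0 : ℝ) < 2 * i / N := by positivity
  have hb2 : (2 * i / N : ℝ) < 2 := by
    rw [div_lt_iff₀ hNR]
    have : (i : ℝ) < N := by exact_mod_cast hiN
    linarith
  have hbc : (((2 * i / N : ℝ)) : ℂ) = 2 * i / N := by push_cast; rfl
  by_cases hS00 : S 0 = 0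
  · refine ⟨?_, ?_⟩
    · rw [hS0] at hS00
      have h1 : (i.factorial : ℂ) ≠ 0 := by exact_mod_cast i.factorial_ne_zero
      exact (div_eq_zero_iff.1 hS00).resolve_right h1
    · have h1 : ∀ᶠ y in 𝓝 (0 : ℂ), f y = 0 := by
        refine hl_odd hb0 hb2 hfa hfo ?_
        filter_upwards [hlin] with y hy
        rw [hS00] at hy
        rw [hbc]
        simp only [hf]
        linear_combination hy
      filter_upwards [h1] with y hy
      rw [← hQ0]
      exact hy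
  · exfalso
    refine k1 (2 * i / N) (fun y => f y / S 0) hb0 hb2 (hfa.div_const) ?_ ?_
    · filter_upwards [hfo] with y hy
      rw [hy, neg_div]
    · filter_upwards [hlin] with y hy
      rw [hbc]
      simp only [hf]
      have h1 : Q (y, 0) / S 0 - (1 + y) ^ (2 * i / N + 3 : ℂ) * (Q (y / (1 + y), 0) / S 0) =
          (Q (y, 0) - (1 + y) ^ (2 * i / N + 3 : ℂ) * Q (y / (1 + y), 0)) / S 0 := by ring
      rw [h1, hy]
      field_simp

/-- ALG-L1 -/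
theorem pl1_of (A : RootA) (lh : LawH0) (k1 : K1) : PL1 := by
  intro N k R ψ₀ ε E h2
  obtain ⟨H, hH, ho, hd, hL⟩ := lh N k R ψ₀ ε E
  have hN := E.hN
  have hNc : (N : ℂ) ≠ 0 := by
    have : N ≠ 0 := by omega
    exact_mod_cast this
  have hR : AnalyticAt ℂ R 0 := E.anR (mem_ball_self E.hε)
  have h0 : R 0 ≠ 0 := E.R0 _ (mem_ball_self E.hε)
  have hσ : (k : ℂ) / N = -3 / 2 := by
    rw [div_eq_div_iff hNc (by norm_num)]
    have : (2 : ℂ) * k = -3 * N := by exact_mod_cast congrArg (fun z : ℤ => (z : ℂ)) h2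
    linear_combination this
  rw [hσ] at hL
  have e1 : (-3 / 2 + 3 : ℂ) = 3 / 2 := by norm_num
  rw [e1] at hL
  have hL' : ∀ᶠ p in 𝓝 ((0, 0) : ℂ × ℂ), rr N (-3 / 2) R p ^ (3 / 2 : ℂ) *
      (R (Te N (-3 / 2) R p).1 * H (Te N (-3 / 2) R p)) = R p.1 * H p := by
    filter_upwards [hL] with p hp
    rw [← hp]
    ring
  have hb := base A hN hR h0 hH (hd.self_of_nhds).2 hL'
  have key : ∀ i, 0 < i → i < N → iteratedDeriv i R 0 = 0 ∧ ∀ᶠ y in 𝓝 (0 : ℂ),
      tc (fun q => R q.2 * H (q.2, q.1) - R 0 * H (0, q.1)) i y = 0 := by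
    intro i
    induction i using Nat.strong_induction_on with
    | _ i ih =>
      intro hi hiN
      exact step A k1 hi hiN hR h0 hH ho hb hL' (fun j hj hji => (ih j hji hj (by omega)).1)
        (fun j hj hji => (ih j hji hj (by omega)).2)
  exact fun j hj hjN => (key j hj hjN).1

end Vale.Agent.P097.H697
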