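import Vale.Agent.P097.H697.K1a
import Vale.Agent.P097.H697.L1

/-! # P097 / ALG-L1: the one-variable kill -/

set_option linter.all false

open Complex Metric Filter Topology Set

namespace Vale.Agent.P097.H697

open Vale.Agent.P097.NZ Vale.Agent.P097.Hol Vale.Agent.P097.H787

theorem log_mul_pos {s w : ℂ} (hs : 0 < s.re) (hw : 0 < w.re) :
    Complex.log (s * w) = Complex.log s + Complex.log w := by
  have hs0 : s ≠ 0 := by
    rintro rfl
    simp at hs
  have hw0 : w ≠ 0 := by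
    rintro rfl
    simp at hw
  have h1 := (abs_arg_lt_pi_div_two_iff (z := s)).2 (Or.inl hs)
  have h2 := (abs_arg_lt_pi_div_two_iff (z := w)).2 (Or.inl hw)
  rw [abs_lt] at h1 h2
  exact Complex.log_mul hs0 hw0 ⟨by linarith, by linarith⟩

theorem mul_cpow_pos {s w : ℂ} (hs : 0 < s.re) (hw : 0 < w.re) (c : ℂ) :
    (s * w) ^ c = s ^ c * w ^ c := by
  have hs0 : s ≠ 0 := by
    rintro rfl
    simp at hs
  have hw0 : w ≠ 0 := by
    rintro rfl
    simp at hw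
  rw [cpow_def_of_ne_zero (mul_ne_zero hs0 hw0), cpow_def_of_ne_zero hs0, cpow_def_of_ne_zero hw0,
    ← Complex.exp_add, log_mul_pos hs hw]
  congr 1
  ring

/-- the right-hand side for `b ≠ 1` -/
noncomputable def Gb (b s : ℂ) : ℂ :=
  -2 * (2 * s + 1) * (((s + 1) ^ (b + 1) - s ^ (b + 1)) / (b + 1) -
    (s * (s + 1) ^ b - (s + 1) * s ^ b) / (b - 1))

/-- the right-hand side for `b = 1` -/
noncomputable def Gl (s : ℂ) : ℂ :=
  -(2 * s + 1) * ((2 * s + 1) - 2 * s * (s + 1) * (Complex.log (s + 1) - Complex.log s))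

theorem slit_add_one {s : ℂ} (hs : s ∈ slitPlane) : s + 1 ∈ slitPlane := by
  have := add_mem_slit hs (x := 1) zero_le_one
  rwa [ofReal_one] at this

theorem Gb_diff (b : ℂ) : DifferentiableOn ℂ (Gb b) slitPlane := by
  intro s hs
  have h1 : ∀ c : ℂ, DifferentiableAt ℂ (fun s : ℂ => s ^ c) s := fun c =>
    differentiableAt_id.cpow_const hs
  have h2 : ∀ c : ℂ, DifferentiableAt ℂ (fun s : ℂ => (s + 1) ^ c) s := fun c =>
    (differentiableAt_id.add_const 1).cpow_const (slit_add_one hs)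
  have h3 : DifferentiableAt ℂ (fun s : ℂ => -2 * (2 * s + 1)) s := by fun_prop
  have h4 : DifferentiableAt ℂ (fun s : ℂ => s) s := differentiableAt_id
  have h5 : DifferentiableAt ℂ (fun s : ℂ => s + 1) s := by fun_prop
  exact (h3.mul ((((h2 (b + 1)).sub (h1 (b + 1))).div_const _).sub
    (((h4.mul (h2 b)).sub (h5.mul (h1 b))).div_const _))).differentiableWithinAt

theorem Gl_diff : DifferentiableOn ℂ Gl slitPlane := by
  intro s hs
  have h1 : DifferentiableAt ℂ (fun s : ℂ => Complex.log s) s := differentiableAt_id.clog hs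
  have h2 : DifferentiableAt ℂ (fun s : ℂ => Complex.log (s + 1)) s :=
    (differentiableAt_id.add_const 1).clog (slit_add_one hs)
  have h3 : DifferentiableAt ℂ (fun s : ℂ => -(2 * s + 1)) s := by fun_prop
  have h4 : DifferentiableAt ℂ (fun s : ℂ => 2 * s + 1) s := by fun_prop
  have h5 : DifferentiableAt ℂ (fun s : ℂ => 2 * s * (s + 1)) s := by fun_prop
  exact (h3.mul (h4.sub (h5.mul (h2.sub h1)))).differentiableWithinAt

/-- the law in the variable `s = 1 / y`, `b ≠ 1` -/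
theorem rel_b {b : ℝ} (hb0 : 0 < b) (hb1 : b ≠ 1) {f : ℂ → ℂ} {s : ℂ} (hs : 0 < s.re)
    (hy : ‖1 / s‖ < 1 / 4)
    (h : f (1 / s) - (1 + 1 / s) ^ ((b : ℂ) + 3) * f ((1 / s) / (1 + 1 / s)) =
      -((1 / s) ^ 3 * (2 + 1 / s) *
        Kint (fun v => (1 + 1 / s * v) ^ (((b : ℂ) - 3) / 2)) (2 + 1 / s))) :
    s ^ ((b : ℂ) + 3) * f (1 / s) = Gb b s + (s + 1) ^ ((b : ℂ) + 3) * f (1 / (s + 1)) := by
  have hs0 : s ≠ 0 := by
    rintro rfl
    simp at hs
  have hy1 : ‖1 / s‖ < 1 := by linarith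
  have hy0 : 1 / s ≠ 0 := one_div_ne_zero hs0
  have hw : 0 < (1 + 1 / s).re := re_pos_of_norm hy1
  have hw0 : 1 + 1 / s ≠ 0 := slitPlane_ne_zero (slit_of_norm hy1)
  have hs1 : s + 1 ≠ 0 := by
    intro h0
    have := congrArg Complex.re h0
    simp only [add_re, one_re, zero_re] at this
    linarith
  have e1 : s + 1 = s * (1 + 1 / s) := by field_simp
  have e2 : (1 / s) / (1 + 1 / s) = 1 / (s + 1) := by field_simp
  have hb1' : (b : ℂ) - 1 ≠ 0 := by
    intro h0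
    apply hb1
    have h1 : ((b - 1 : ℝ) : ℂ) = 0 := by push_cast; exact h0
    have h2 : b - 1 = 0 := by exact_mod_cast h1
    linarith
  have hb2' : (b : ℂ) + 1 ≠ 0 := by
    intro h0
    have h1 : ((b + 1 : ℝ) : ℂ) = 0 := by push_cast; exact h0
    have h2 : b + 1 = 0 := by exact_mod_cast h1
    linarith
  have a1 : ((b : ℂ) - 3) / 2 + 1 ≠ 0 := by
    intro h0
    apply hb1'
    linear_combination 2 * h0
  have a2 : ((b : ℂ) - 3) / 2 + 2 ≠ 0 := by
    intro h0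
    apply hb2'
    linear_combination 2 * h0
  have hK := Kint_pow hy0 a1 a2 (x := 2 + 1 / s) fun t ht => seg_slit hy ht
  rw [one_add_mul, sq_cpow hy1, sq_cpow hy1] at hK
  have e3 : (2 : ℂ) * (((b : ℂ) - 3) / 2 + 2) = b + 1 := by ring
  have e4 : (2 : ℂ) * (((b : ℂ) - 3) / 2 + 1) = b - 1 := by ring
  rw [e3, e4] at hK
  rw [hK, e2] at h
  have c1 : s ^ ((b : ℂ) + 3) = s ^ (b : ℂ) * s ^ 3 := by
    rw [cpow_add _ _ hs0]
    congr 1
    exact_mod_cast cpow_natCast s 3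
  have c2 : (1 + 1 / s) ^ ((b : ℂ) + 3) = (1 + 1 / s) ^ (b : ℂ) * (1 + 1 / s) ^ 3 := by
    rw [cpow_add _ _ hw0]
    congr 1
    exact_mod_cast cpow_natCast (1 + 1 / s) 3
  have c3 : (s + 1) ^ ((b : ℂ) + 3) = s ^ (b : ℂ) * s ^ 3 *
      ((1 + 1 / s) ^ (b : ℂ) * (1 + 1 / s) ^ 3) := by
    rw [e1, mul_cpow_pos hs hw, c1, c2]
  have c4 : (1 + 1 / s) ^ ((b : ℂ) + 1) = (1 + 1 / s) ^ (b : ℂ) * (1 + 1 / s) := by
    rw [cpow_add _ _ hw0, cpow_one]
  have c5 : (1 + 1 / s) ^ ((b : ℂ) - 1) = (1 + 1 / s) ^ (b : ℂ) / (1 + 1 / s) := by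
    rw [cpow_sub _ _ hw0, cpow_one]
  have c6 : (s + 1) ^ (b : ℂ) = s ^ (b : ℂ) * (1 + 1 / s) ^ (b : ℂ) := by
    rw [e1, mul_cpow_pos hs hw]
  have c7 : (s + 1) ^ ((b : ℂ) + 1) = s ^ (b : ℂ) * s * ((1 + 1 / s) ^ (b : ℂ) * (1 + 1 / s)) := by
    rw [cpow_add _ _ hs1, cpow_one, c6]
    field_simp
  have c8 : s ^ ((b : ℂ) + 1) = s ^ (b : ℂ) * s := by
    rw [cpow_add _ _ hs0, cpow_one]
  rw [c2, c4, c5] at h
  rw [Gb, c1, c3, c6, c7, c8]
  set u := s ^ (b : ℂ)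
  set w := (1 + 1 / s) ^ (b : ℂ)
  have h' : f (1 / s) = w * (1 + 1 / s) ^ 3 * f (1 / (s + 1)) -
      (1 / s) ^ 3 * (2 + 1 / s) * (1 / (1 / s) ^ 2 * ((w * (1 + 1 / s) - 1) /
        (((b : ℂ) - 3) / 2 + 2) - (1 + 1 / s) * ((w / (1 + 1 / s) - 1) /
        (((b : ℂ) - 3) / 2 + 1)))) := by
    linear_combination h
  rw [h']
  have a1' : ((b : ℂ) - 3) / 2 + 1 = (b - 1) / 2 := by ring
  have a2' : ((b : ℂ) - 3) / 2 + 2 = (b + 1) / 2 := by ring
  rw [a1', a2']
  field_simp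
  ring

/-- the law in the variable `s = 1 / y`, `b = 1` -/
theorem rel_l {f : ℂ → ℂ} {s : ℂ} (hs : 0 < s.re) (hy : ‖1 / s‖ < 1 / 4)
    (h : f (1 / s) - (1 + 1 / s) ^ (((1 : ℝ) : ℂ) + 3) * f ((1 / s) / (1 + 1 / s)) =
      -((1 / s) ^ 3 * (2 + 1 / s) *
        Kint (fun v => (1 + 1 / s * v) ^ ((((1 : ℝ) : ℂ) - 3) / 2)) (2 + 1 / s))) :
    s ^ (((1 : ℝ) : ℂ) + 3) * f (1 / s) =
      Gl s + (s + 1) ^ (((1 : ℝ) : ℂ) + 3) * f (1 / (s + 1)) := by
  have hs0 : s ≠ 0 := by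
    rintro rfl
    simp at hs
  have hy1 : ‖1 / s‖ < 1 := by linarith
  have hy0 : 1 / s ≠ 0 := one_div_ne_zero hs0
  have hw : 0 < (1 + 1 / s).re := re_pos_of_norm hy1
  have hw0 : 1 + 1 / s ≠ 0 := slitPlane_ne_zero (slit_of_norm hy1)
  have hs1 : s + 1 ≠ 0 := by
    intro h0
    have := congrArg Complex.re h0
    simp only [add_re, one_re, zero_re] at this
    linarith
  have e1 : s + 1 = s * (1 + 1 / s) := by field_simp
  have e2 : (1 / s) / (1 + 1 / s) = 1 / (s + 1) := by field_simp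
  have e3 : ((((1 : ℝ) : ℂ) - 3) / 2) = -1 := by push_cast; norm_num
  have e4 : (((1 : ℝ) : ℂ) + 3) = ((4 : ℕ) : ℂ) := by push_cast; norm_num
  rw [e3, e4, Kint_inv hy0 (x := 2 + 1 / s) (fun t ht => seg_slit hy ht), one_add_mul, e2] at h
  rw [e4]
  simp only [cpow_natCast] at h ⊢
  have e5 : Complex.log ((1 + 1 / s) ^ 2) = 2 * (Complex.log (s + 1) - Complex.log s) := by
    rw [e1, log_mul_pos hs hw, sq, log_mul_pos hw hw]
    ring
  rw [e5] at h
  rw [Gl]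
  set l := Complex.log (s + 1) - Complex.log s
  have h' : f (1 / s) = (1 + 1 / s) ^ 4 * f (1 / (s + 1)) -
      (1 / s) ^ 3 * (2 + 1 / s) * (1 / (1 / s) ^ 2 * (1 / s * (2 + 1 / s) -
        (1 + 1 / s) * (2 * l))) := by
    linear_combination h
  rw [h']
  field_simp
  ring

/-- the solution of the equation on the slit plane -/
theorem solve {b : ℝ} {f G : ℂ → ℂ} {R : ℝ} (hR : 0 < R) (hf : AnalyticAt ℂ f 0)
    (ho : ∀ᶠ y in 𝓝 (0 : ℂ), f (-y) = -f y)
    (hd : ∀ s : ℂ, R < s.re → DifferentiableAt ℂ f (1 / s)) (hG : DifferentiableOn ℂ G slitPlane)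
    (rel : ∀ s : ℂ, R < s.re → s ^ ((b : ℂ) + 3) * f (1 / s) =
      G s + (s + 1) ^ ((b : ℂ) + 3) * f (1 / (s + 1))) :
    ∃ B : ℂ → ℂ, AnalyticAt ℂ B 0 ∧ ∀ᶠ y : ℝ in 𝓝[>] 0,
      G (I * y) + B (I * y) = exp (Real.pi * I * b) * (G (-(I * y)) + B (-(I * y))) := by
  have hΦ : ∀ s : ℂ, R < s.re → DifferentiableAt ℂ (fun s : ℂ => s ^ ((b : ℂ) + 3) * f (1 / s)) s := by
    intro s hs
    have hs1 : s ∈ slitPlane := Or.inl (hR.trans hs)
    have h1 : DifferentiableAt ℂ (fun s : ℂ => s ^ ((b : ℂ) + 3)) s :=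
      (differentiableAt_id).cpow_const hs1
    have h3 : DifferentiableAt ℂ (fun s : ℂ => 1 / s) s := by
      simp only [one_div]
      exact differentiableAt_inv (slitPlane_ne_zero hs1)
    exact h1.mul (DifferentiableAt.comp s (hd s hs) h3)
  obtain ⟨P, hPd, hPs, hPΦ⟩ := ext_sol hΦ hG rel
  have hodd := odd_rel (b := b) hf ho hPd (by
    filter_upwards [eventually_gt_atTop R] with x hx
    exact (hPΦ x (by simpa using hx)).symm)
  refine ⟨fun s => P (s + 1), ?_, ?_⟩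
  · have h1 : (1 : ℂ) ∈ slitPlane := by simp
    have h2 : AnalyticAt ℂ P ((0 : ℂ) + 1) := by
      rw [zero_add]
      exact hPd.analyticAt (isOpen_slitPlane.mem_nhds h1)
    have h3 : AnalyticAt ℂ (fun s : ℂ => s + 1) 0 := analyticAt_id.add analyticAt_const
    exact h2.comp_of_eq h3 rfl
  · filter_upwards [self_mem_nhdsWithin] with y hy
    have hy' : (0 : ℝ) < y := hy
    have h1 := hodd (-(I * y)) (by simp [hy'])
    rw [neg_neg, hPs (I * y), hPs (-(I * y))] at h1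
    exact h1

theorem tI : Tendsto (fun y : ℝ => (I * y : ℂ)) (𝓝[>] 0) (𝓝 0) := by
  have : Continuous fun y : ℝ => (I * y : ℂ) := by fun_prop
  have h1 := this.tendsto 0
  simp only [Complex.ofReal_zero, mul_zero] at h1
  exact h1.mono_left nhdsWithin_le_nhds

/-- the kill, `b ≠ 1` -/
theorem end_b {b : ℝ} (hb0 : 0 < b) (hb2 : b < 2) (hb1 : b ≠ 1) {B : ℂ → ℂ}
    (hB : AnalyticAt ℂ B 0)
    (h : ∀ᶠ y : ℝ in 𝓝[>] 0, Gb b (I * y) + B (I * y) =
      exp (Real.pi * I * b) * (Gb b (-(I * y)) + B (-(I * y)))) : False := by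
  have hb1' : (b : ℂ) - 1 ≠ 0 := by
    intro h0
    apply hb1
    have h1 : ((b - 1 : ℝ) : ℂ) = 0 := by push_cast; exact h0
    have h2 : b - 1 = 0 := by exact_mod_cast h1
    linarith
  have hb2' : (b : ℂ) + 1 ≠ 0 := by
    intro h0
    have h1 : ((b + 1 : ℝ) : ℂ) = 0 := by push_cast; exact h0
    have h2 : b + 1 = 0 := by exact_mod_cast h1
    linarith
  have hb3' : (b : ℂ) + 2 ≠ 0 := by
    intro h0
    have h1 : ((b + 2 : ℝ) : ℂ) = 0 := by push_cast; exact h0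
    have h2 : b + 2 = 0 := by exact_mod_cast h1
    linarith
  -- the analytic part of `Gb`
  set A : ℂ → ℂ := fun s => -2 * (2 * s + 1) * ((s + 1) ^ ((b : ℂ) + 1) / (b + 1) -
    s * (s + 1) ^ (b : ℂ) / (b - 1)) with hA
  have hAa : AnalyticAt ℂ A 0 := by
    have h2 : ∀ c : ℂ, AnalyticAt ℂ (fun s : ℂ => (s + 1) ^ c) 0 := fun c =>
      (analyticAt_id.add analyticAt_const).cpow analyticAt_const (by simp)
    have h3 : AnalyticAt ℂ (fun s : ℂ => -2 * (2 * s + 1)) 0 := by fun_prop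
    exact h3.mul (((h2 _).div_const).sub ((analyticAt_id.mul (h2 _)).div_const))
  set q : ℂ → ℂ := fun s => 2 * (2 * s + 1) * (s / (b + 1) - (s + 1) / (b - 1)) with hq
  have hG : ∀ s : ℂ, s ≠ 0 → Gb b s = A s + s ^ (b : ℂ) * q s := by
    intro s hs
    simp only [Gb, hA, hq]
    rw [cpow_add _ _ hs, cpow_one]
    ring
  set C : ℂ → ℂ := fun s => A s + B s with hC
  have hCa : AnalyticAt ℂ C 0 := hAa.add hB
  set D : ℂ → ℂ := fun z => C (I * z) - exp (Real.pi * I * b) * C (-(I * z)) with hD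
  have hDan : AnalyticAt ℂ D 0 := by
    have h1 : AnalyticAt ℂ (fun z : ℂ => I * z) 0 := analyticAt_const.mul analyticAt_id
    have h2 : AnalyticAt ℂ (fun z : ℂ => -(I * z)) 0 := h1.neg
    refine AnalyticAt.sub (hCa.comp_of_eq h1 (by simp)) ?_
    exact analyticAt_const.mul (hCa.comp_of_eq h2 (by simp))
  have e4 : ∀ᶠ y : ℝ in 𝓝[>] 0, D y =
      (8 * (b + 2) / ((b + 1) * (b - 1)) * I ^ ((b : ℂ) + 1)) * ((y ^ (b + 1) : ℝ) : ℂ) := by
    filter_upwards [h, self_mem_nhdsWithin] with y h1 h3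
    have hy : (0 : ℝ) < y := h3
    have hyc : (y : ℂ) ≠ 0 := by exact_mod_cast hy.ne'
    have n1 : (I * y : ℂ) ≠ 0 := mul_ne_zero Complex.I_ne_zero hyc
    have n2 : (-(I * y) : ℂ) ≠ 0 := neg_ne_zero.2 n1
    rw [hG _ n1, hG _ n2] at h1
    have p0 := exp_pi_cpow hy (b : ℂ)
    have w1 : I ^ ((b : ℂ) + 1) * ((y ^ (b + 1) : ℝ) : ℂ) = (I * y : ℂ) ^ (b : ℂ) * (I * y) := by
      have h5 : (I * y : ℂ) ^ ((b : ℂ) + 1) = I ^ ((b : ℂ) + 1) * ((y ^ (b + 1) : ℝ) : ℂ) := by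
        rw [mul_comm I (y : ℂ), real_mul_cpow hy Complex.I_ne_zero, Complex.ofReal_cpow hy.le]
        push_cast
        ring
      rw [← h5, cpow_add _ _ n1, cpow_one]
    rw [mul_assoc, w1]
    have h6 : D y = (I * y : ℂ) ^ (b : ℂ) * (q (-(I * y)) - q (I * y)) := by
      simp only [hD, hC]
      linear_combination h1 + q (-(I * y)) * p0
    rw [h6]
    simp only [hq]
    field_simp
    ring
  have hbn : ∀ n : ℕ, (n : ℝ) ≠ b + 1 := by
    intro n hn
    have h1 : (1 : ℝ) < n := by linarith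
    have h2 : (n : ℝ) < 3 := by linarith
    have h3 : 1 < n := by exact_mod_cast h1
    have h4 : n < 3 := by exact_mod_cast h2
    have h5 : n = 2 := by omega
    apply hb1
    rw [h5] at hn
    push_cast at hn
    linarith
  have e5 := nonint hDan hbn e4
  have hI : I ^ ((b : ℂ) + 1) ≠ 0 := by
    rw [Complex.cpow_def_of_ne_zero Complex.I_ne_zero]
    exact Complex.exp_ne_zero _
  refine mul_ne_zero (div_ne_zero (mul_ne_zero ?_ hb3') (mul_ne_zero hb2' hb1')) hI e5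
  norm_num

/-- the kill, `b = 1` -/
theorem end_l {B : ℂ → ℂ} (hB : AnalyticAt ℂ B 0)
    (h : ∀ᶠ y : ℝ in 𝓝[>] 0, Gl (I * y) + B (I * y) =
      exp (Real.pi * I * (1 : ℝ)) * (Gl (-(I * y)) + B (-(I * y)))) : False := by
  set A : ℂ → ℂ := fun s => -(2 * s + 1) * ((2 * s + 1) - 2 * s * (s + 1) * Complex.log (s + 1))
    with hA
  have hAa : AnalyticAt ℂ A 0 := by
    have h2 : AnalyticAt ℂ (fun s : ℂ => Complex.log (s + 1)) 0 :=
      (analyticAt_id.add analyticAt_const).clog (by simp)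
    have h3 : AnalyticAt ℂ (fun s : ℂ => -(2 * s + 1)) 0 := by fun_prop
    have h4 : AnalyticAt ℂ (fun s : ℂ => 2 * s + 1) 0 := by fun_prop
    have h5 : AnalyticAt ℂ (fun s : ℂ => 2 * s * (s + 1)) 0 := by fun_prop
    exact h3.mul (h4.sub (h5.mul h2))
  have hG : ∀ s : ℂ, Gl s = A s - 2 * s * (s + 1) * (2 * s + 1) * Complex.log s := by
    intro s
    simp only [Gl, hA]
    ring
  set C : ℂ → ℂ := fun s => A s + B s with hC
  have hCa : AnalyticAt ℂ C 0 := hAa.add hB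
  set E : ℂ → ℂ := fun z => C (I * z) + C (-(I * z)) with hE
  have hEd : HasDerivAt E 0 0 := by
    have h1 : HasDerivAt (fun z : ℂ => I * z) (I * 1) 0 := (hasDerivAt_id (0 : ℂ)).const_mul I
    have h2 : HasDerivAt (fun z : ℂ => -(I * z)) (-(I * 1)) 0 := h1.neg
    have h3 : HasDerivAt C (deriv C 0) (I * (0 : ℂ)) := by
      rw [mul_zero]
      exact hCa.differentiableAt.hasDerivAt
    have h4 : HasDerivAt C (deriv C 0) (-(I * (0 : ℂ))) := by
      rw [mul_zero, neg_zero]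
      exact hCa.differentiableAt.hasDerivAt
    have h5 := (h3.comp (0 : ℂ) h1).add (h4.comp (0 : ℂ) h2)
    exact h5.congr_deriv (by ring)
  have e1 : ∀ᶠ y : ℝ in 𝓝[>] 0, E y = -12 * (y : ℂ) * ((y * Real.log y : ℝ) : ℂ) -
      2 * Real.pi * y * (1 - 2 * y ^ 2) := by
    filter_upwards [h, self_mem_nhdsWithin] with y h1 h3
    have hy : (0 : ℝ) < y := h3
    rw [hG, hG] at h1
    have l1 : Complex.log (I * y) = Real.log y + I * (Real.pi / 2) := by
      rw [mul_comm I (y : ℂ), Complex.log_ofReal_mul hy Complex.I_ne_zero, Complex.log_I]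
      ring
    have l2 : Complex.log (-(I * y)) = Real.log y - I * (Real.pi / 2) := by
      have : (-(I * y) : ℂ) = y * (-I) := by ring
      rw [this, Complex.log_ofReal_mul hy (neg_ne_zero.2 Complex.I_ne_zero), Complex.log_neg_I]
      ring
    have l3 : exp (Real.pi * I * ((1 : ℝ) : ℂ)) = -1 := by
      rw [ofReal_one, mul_one, Complex.exp_pi_mul_I]
    rw [l1, l2, l3] at h1
    have hI2 : I ^ 2 = -1 := Complex.I_sq
    have hI3 : I ^ 3 = -I := by rw [pow_succ, hI2]; ring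
    have hI4 : I ^ 4 = 1 := Complex.I_pow_four
    simp only [hE, hC]
    push_cast
    have h5 : A (I * y) + B (I * y) + (A (-(I * y)) + B (-(I * y))) =
        2 * (I * y) * (I * y + 1) * (2 * (I * y) + 1) * (Real.log y + I * (Real.pi / 2)) +
        2 * (-(I * y)) * (-(I * y) + 1) * (2 * (-(I * y)) + 1) *
          (Real.log y - I * (Real.pi / 2)) := by
      linear_combination h1
    rw [h5]
    ring_nf
    rw [hI2, hI4]
    ring
  have t0 : Tendsto (fun y : ℝ => (y : ℂ)) (𝓝[>] 0) (𝓝 0) := by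
    have h1 := Complex.continuous_ofReal.tendsto 0
    rw [Complex.ofReal_zero] at h1
    exact h1.mono_left nhdsWithin_le_nhds
  have t1 : Tendsto (fun y : ℝ => ((y * Real.log y : ℝ) : ℂ)) (𝓝[>] 0) (𝓝 0) := by
    have h1 := (Complex.continuous_ofReal.comp Real.continuous_mul_log).tendsto 0
    simp only [Function.comp_def, zero_mul, Complex.ofReal_zero] at h1
    exact h1.mono_left nhdsWithin_le_nhds
  have t2 : Tendsto (fun y : ℝ => -12 * ((y * Real.log y : ℝ) : ℂ) -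
      2 * Real.pi * (1 - 2 * (y : ℂ) ^ 2)) (𝓝[>] 0)
      (𝓝 (-12 * 0 - 2 * (Real.pi : ℂ) * (1 - 2 * 0 ^ 2) : ℂ)) :=
    (t1.const_mul _).sub (((t0.pow 2).const_mul 2).const_sub 1 |>.const_mul _)
  have hE0 : E 0 = 0 := by
    have h1 : Tendsto (fun y : ℝ => E y) (𝓝[>] 0) (𝓝 (E 0)) :=
      hEd.continuousAt.tendsto.comp t0
    have h2 : Tendsto (fun y : ℝ => (y : ℂ) * (-12 * ((y * Real.log y : ℝ) : ℂ) -
      2 * Real.pi * (1 - 2 * (y : ℂ) ^ 2))) (𝓝[>] 0)
      (𝓝 (0 * (-12 * 0 - 2 * (Real.pi : ℂ) * (1 - 2 * 0 ^ 2)) : ℂ)) := t0.mul t2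
    rw [zero_mul] at h2
    refine tendsto_nhds_unique h1 (h2.congr' ?_)
    filter_upwards [e1] with y hy
    rw [hy]
    ring
  have h3 : Tendsto (fun y : ℝ => E y / y) (𝓝[>] 0) (𝓝 0) := by
    have h4 := (hasDerivAt_iff_tendsto_slope.1 hEd)
    have h5 : Tendsto (fun y : ℝ => (y : ℂ)) (𝓝[>] 0) (𝓝[≠] 0) := by
      refine tendsto_nhdsWithin_of_tendsto_nhds_of_eventually_within _ t0 ?_
      filter_upwards [self_mem_nhdsWithin] with y hy
      have hy' : (0 : ℝ) < y := hy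
      exact fun h0 => hy'.ne' (Complex.ofReal_injective (by simpa using h0))
    refine (h4.comp h5).congr fun y => ?_
    rw [Function.comp_apply, slope_def_field, hE0, sub_zero, sub_zero]
  have h4 := tendsto_nhds_unique h3 (t2.congr' (by
    filter_upwards [e1, self_mem_nhdsWithin] with y hy hy2
    have hy' : (0 : ℝ) < y := hy2
    have hyc : (y : ℂ) ≠ 0 := by exact_mod_cast hy'.ne'
    rw [hy]
    field_simp))
  have h5 : (Real.pi : ℂ) = 0 := by linear_combination (1 / 2) * h4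
  exact Real.pi_ne_zero (by exact_mod_cast h5)

/-- the one-variable kill -/
theorem k1 : K1 := by
  intro b f hb0 hb2 hf ho hlaw
  obtain ⟨ε, hε, hE⟩ := Metric.eventually_nhds_iff_ball.1 ((hf.eventually_analyticAt).and hlaw)
  set R : ℝ := 1 / ε + 4 with hR
  have hR0 : 0 < R := by positivity
  have hy : ∀ s : ℂ, R < s.re → 1 / s ∈ ball (0 : ℂ) ε ∧ ‖1 / s‖ < 1 / 4 := by
    intro s hs
    have h1 : R < ‖s‖ := lt_of_lt_of_le hs (Complex.re_le_norm s)
    have h2 : 0 < ‖s‖ := hR0.trans h1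
    have h3 : 0 < 1 / ε := by positivity
    refine ⟨?_, ?_⟩
    · rw [mem_ball_zero_iff, norm_div, norm_one, div_lt_iff₀ h2]
      have h4 : 1 / ε < ‖s‖ := by linarith
      rw [div_lt_iff₀ hε] at h4
      linarith
    · rw [norm_div, norm_one, div_lt_div_iff₀ h2 (by norm_num)]
      linarith
  have hd : ∀ s : ℂ, R < s.re → DifferentiableAt ℂ f (1 / s) := fun s hs =>
    (hE _ (hy s hs).1).1.differentiableAt
  rcases eq_or_ne b 1 with rfl | hb1
  · obtain ⟨B, hB, h⟩ := solve (b := 1) hR0 hf ho hd Gl_diff fun s hs =>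
      rel_l (hR0.trans hs) (hy s hs).2 (hE _ (hy s hs).1).2
    exact end_l hB h
  · obtain ⟨B, hB, h⟩ := solve (b := b) hR0 hf ho hd (Gb_diff b) fun s hs =>
      rel_b hb0 hb1 (hR0.trans hs) (hy s hs).2 (hE _ (hy s hs).1).2
    exact end_b hb0 hb2 hb1 hB h

end Vale.Agent.P097.H697
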