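import Vale.Agent.P097.H697.Fac

/-! # P097 / ALG-L1: integrals of kernels, perturbation of the root, the homogeneous law -/

set_option linter.all false

open Complex Metric Filter Topology Set

namespace Vale.Agent.P097.H697

open Vale.Agent.P097.NZ Vale.Agent.P097.Hol

/-! ## integrals of kernels -/

/-- value of the integral from a primitive along the segment `[0, x]` -/
theorem Kint_prim {K P : ℂ → ℂ} {x : ℂ}
    (hP : ∀ s ∈ Icc (0 : ℝ) 1, HasDerivAt P (K (s * x) * (s * x - 1)) (s * x))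
    (hc : ContinuousOn (fun s : ℝ => K (s * x)) (Icc (0 : ℝ) 1)) : Kint K x = P x - P 0 := by
  have h1 : ∀ s ∈ uIcc (0 : ℝ) 1, HasDerivAt (fun s : ℝ => P (s * x))
      (x * (K (s * x) * (s * x - 1))) s := by
    intro s hs
    rw [uIcc_of_le zero_le_one] at hs
    have h2 : HasDerivAt (fun s : ℝ => (s : ℂ) * x) (1 * x) s :=
      (Complex.ofRealCLM.hasDerivAt (x := s)).mul_const x
    have h3 := (hP s hs).comp s h2
    refine h3.congr_deriv ?_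
    ring
  have h2 : IntervalIntegrable (fun s : ℝ => x * (K (s * x) * (s * x - 1)))
      MeasureTheory.volume 0 1 := by
    apply ContinuousOn.intervalIntegrable
    rw [uIcc_of_le zero_le_one]
    exact continuousOn_const.mul (hc.mul (by fun_prop))
  have h3 := intervalIntegral.integral_eq_sub_of_hasDerivAt h1 h2
  rw [Kint, h3]
  simp

theorem seg_mem {x : ℂ} (hx : ‖x‖ ≤ 3) {s : ℝ} (hs : s ∈ Icc (0 : ℝ) 1) :
    (s : ℂ) * x ∈ closedBall (0 : ℂ) 3 := H65.norm_smul_le_three hx hs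

theorem Kint_add_mul {K m : ℂ → ℂ} {c x : ℂ} (hK : ContinuousOn K (closedBall 0 3))
    (hm : ContinuousOn m (closedBall 0 3)) (hx : ‖x‖ ≤ 3) :
    Kint (fun v => K v + c * m v) x = Kint K x + c * Kint m x := by
  have hc : ∀ g : ℂ → ℂ, ContinuousOn g (closedBall 0 3) → IntervalIntegrable
      (fun s : ℝ => x * (g (s * x) * (s * x - 1))) MeasureTheory.volume 0 1 := by
    intro g hg
    apply ContinuousOn.intervalIntegrable
    rw [uIcc_of_le zero_le_one]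
    refine continuousOn_const.mul (ContinuousOn.mul ?_ (by fun_prop))
    exact hg.comp (by fun_prop) fun s hs => seg_mem hx hs
  unfold Kint
  rw [← intervalIntegral.integral_const_mul, ← intervalIntegral.integral_add (hc K hK)
    ((hc m hm).const_mul c)]
  refine intervalIntegral.integral_congr fun s hs => ?_
  show x * ((K (s * x) + c * m (s * x)) * (s * x - 1)) =
    x * (K (s * x) * (s * x - 1)) + c * (x * (m (s * x) * (s * x - 1)))
  ring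

/-- `Kint (m ξ) x` is analytic in `(ξ, x)` -/
theorem Kint_joint {m : ℂ → ℂ → ℂ} {ξ₀ : ℂ}
    (hm : ∀ v ∈ closedBall (0 : ℂ) 3, AnalyticAt ℂ (fun q : ℂ × ℂ => m q.1 q.2) (ξ₀, v))
    {x₀ : ℂ} (hx : ‖x₀‖ < 5 / 2) : AnalyticAt ℂ (fun q : ℂ × ℂ => Kint (m q.1) q.2) (ξ₀, x₀) := by
  set M : ℂ × ℂ → ℂ := fun q => m q.1 q.2 with hM
  have hNo : IsOpen {q : ℂ × ℂ | AnalyticAt ℂ M q} := isOpen_analyticAt ℂ M
  have hsub : ({ξ₀} : Set ℂ) ×ˢ closedBall (0 : ℂ) 3 ⊆ {q : ℂ × ℂ | AnalyticAt ℂ M q} := by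
    rintro ⟨p, v⟩ ⟨hp, hv⟩
    simp only [mem_singleton_iff] at hp
    subst hp
    exact hm v hv
  obtain ⟨U, V, hU, hV, hpU, hVb, hUV⟩ := generalized_tube_lemma isCompact_singleton
    (isCompact_closedBall (0 : ℂ) 3) hNo hsub
  have hp₀ : ξ₀ ∈ U := hpU (mem_singleton ξ₀)
  have hUb : IsOpen (U ×ˢ ball (0 : ℂ) (5 / 2)) := hU.prod isOpen_ball
  have hG : DifferentiableOn ℂ (fun z : (ℂ × ℂ) × ℂ =>
      z.1.2 * (m z.1.1 (z.2 * z.1.2) * (z.2 * z.1.2 - 1)))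
      ((U ×ˢ ball (0 : ℂ) (5 / 2)) ×ˢ ball (0 : ℂ) (6 / 5)) := by
    have h1 : DifferentiableOn ℂ (fun z : (ℂ × ℂ) × ℂ => M (z.1.1, z.2 * z.1.2))
        ((U ×ˢ ball (0 : ℂ) (5 / 2)) ×ˢ ball (0 : ℂ) (6 / 5)) := by
      have h2 : DifferentiableOn ℂ M (U ×ˢ V) := fun q hq =>
        (hUV hq).differentiableAt.differentiableWithinAt
      refine h2.comp (by fun_prop) ?_
      rintro ⟨⟨p, x⟩, s⟩ ⟨⟨hp, hx⟩, hs⟩
      refine ⟨hp, hVb ?_⟩
      simp only [mem_ball_zero_iff] at hx hs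
      rw [mem_closedBall_zero_iff, norm_mul]
      nlinarith [norm_nonneg x, norm_nonneg s]
    have h3 : DifferentiableOn ℂ (fun z : (ℂ × ℂ) × ℂ => z.1.2)
        ((U ×ˢ ball (0 : ℂ) (5 / 2)) ×ˢ ball (0 : ℂ) (6 / 5)) := by fun_prop
    have h4 : DifferentiableOn ℂ (fun z : (ℂ × ℂ) × ℂ => z.2 * z.1.2 - 1)
        ((U ×ˢ ball (0 : ℂ) (5 / 2)) ×ˢ ball (0 : ℂ) (6 / 5)) := by fun_prop
    exact h3.mul (h1.mul h4)
  have h5 := H65.differentiableOn_unitIntegral (G := fun z : (ℂ × ℂ) × ℂ =>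
      z.1.2 * (m z.1.1 (z.2 * z.1.2) * (z.2 * z.1.2 - 1))) hUb isOpen_ball (by
        intro s hs
        rw [mem_ball_zero_iff, Complex.norm_real, Real.norm_of_nonneg hs.1]
        linarith [hs.2]) hG
  have h6 : DifferentiableOn ℂ (fun q : ℂ × ℂ => Kint (m q.1) q.2)
      (U ×ˢ ball (0 : ℂ) (5 / 2)) := h5
  exact analyticAt_of_differentiableOn hUb h6 ⟨hp₀, by rwa [mem_ball_zero_iff]⟩

/-- the derivative of the integral in its end point -/
theorem Kint_hasDerivAt {K : ℂ → ℂ} (hK : ∀ v ∈ closedBall (0 : ℂ) 3, AnalyticAt ℂ K v)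
    {x₀ : ℂ} (hx : ‖x₀‖ < 5 / 2) : HasDerivAt (Kint K) (K x₀ * (x₀ - 1)) x₀ := by
  have hd : DifferentiableOn ℂ (fun v => K v * (v - 1)) (ball 0 3) := by
    intro v hv
    have h1 : DifferentiableAt ℂ K v := (hK v (ball_subset_closedBall hv)).differentiableAt
    exact (h1.mul (by fun_prop)).differentiableWithinAt
  obtain ⟨P, hP⟩ := hd.isExactOn_ball
  have h1 : ∀ x ∈ ball (0 : ℂ) (5 / 2), Kint K x = P x - P 0 := by
    intro x hx
    rw [mem_ball_zero_iff] at hx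
    refine Kint_prim (fun s hs => hP _ ?_) ?_
    · rw [mem_ball_zero_iff, norm_mul, Complex.norm_real, Real.norm_of_nonneg hs.1]
      nlinarith [hs.1, hs.2, norm_nonneg x]
    · intro s hs
      have h2 : (s : ℂ) * x ∈ closedBall (0 : ℂ) 3 := seg_mem (by linarith) hs
      have h3 : ContinuousAt K (s * x) := (hK _ h2).continuousAt
      have h4 : ContinuousAt (fun s : ℝ => (s : ℂ) * x) s := by fun_prop
      exact (ContinuousAt.comp (f := fun s : ℝ => (s : ℂ) * x) h3 h4).continuousWithinAt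
  have hx' : x₀ ∈ ball (0 : ℂ) (5 / 2) := by rwa [mem_ball_zero_iff]
  have h2 : HasDerivAt (fun x => P x - P 0) (K x₀ * (x₀ - 1)) x₀ :=
    (hP x₀ (ball_subset_ball (by norm_num) hx')).sub_const _
  refine h2.congr_of_eventuallyEq ?_
  filter_upwards [isOpen_ball.mem_nhds hx'] with x hx using h1 x hx

/-- limits of difference quotients -/
theorem tendsto_quot {f : ℂ → ℂ} {x : ℂ → ℂ} {x₀ D X : ℂ} {i : ℕ} (hf : HasDerivAt f D x₀)
    (hx : Tendsto x (𝓝[≠] 0) (𝓝 x₀))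
    (hX : Tendsto (fun ξ => (x ξ - x₀) / ξ ^ i) (𝓝[≠] 0) (𝓝 X)) :
    Tendsto (fun ξ => (f (x ξ) - f x₀) / ξ ^ i) (𝓝[≠] 0) (𝓝 (D * X)) := by
  have h1 : ContinuousAt (dslope f x₀) x₀ := continuousAt_dslope_same.2 hf.differentiableAt
  have h2 : Tendsto (fun ξ => dslope f x₀ (x ξ)) (𝓝[≠] 0) (𝓝 D) := by
    have := h1.tendsto.comp hx
    rw [dslope_same, hf.deriv] at this
    exact this
  refine (h2.mul hX).congr fun ξ => ?_
  have h3 := sub_smul_dslope f x₀ (x ξ)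
  rw [smul_eq_mul] at h3
  rw [← h3]
  ring

/-- perturbation of the root -/
theorem tendsto_root {K : ℂ → ℂ} {m : ℂ → ℂ → ℂ} {x : ℂ → ℂ} {i : ℕ} (hi : i ≠ 0)
    (hK : ∀ v ∈ closedBall (0 : ℂ) 3, AnalyticAt ℂ K v)
    (hm : ∀ v ∈ closedBall (0 : ℂ) 3, AnalyticAt ℂ (fun q : ℂ × ℂ => m q.1 q.2) (0, v))
    (hx : ContinuousAt x 0) (hx0 : ‖x 0‖ < 5 / 2)
    (hz : ∀ᶠ ξ in 𝓝 (0 : ℂ), Kint K (x ξ) + ξ ^ i * Kint (m ξ) (x ξ) = 0)
    (hD : K (x 0) * (x 0 - 1) ≠ 0) :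
    Tendsto (fun ξ => (x ξ - x 0) / ξ ^ i) (𝓝[≠] 0)
      (𝓝 (-Kint (m 0) (x 0) / (K (x 0) * (x 0 - 1)))) := by
  have h0 : Kint K (x 0) = 0 := by
    have := hz.self_of_nhds
    rwa [zero_pow hi, zero_mul, add_zero] at this
  have hd := Kint_hasDerivAt hK hx0
  have h1 : ContinuousAt (dslope (Kint K) (x 0)) (x 0) :=
    continuousAt_dslope_same.2 hd.differentiableAt
  have h2 : Tendsto (fun ξ => dslope (Kint K) (x 0) (x ξ)) (𝓝 0) (𝓝 (K (x 0) * (x 0 - 1))) := by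
    have := h1.tendsto.comp hx.tendsto
    rw [dslope_same, hd.deriv] at this
    exact this
  have h3 : Tendsto (fun ξ => Kint (m ξ) (x ξ)) (𝓝 0) (𝓝 (Kint (m 0) (x 0))) := by
    have h4 : ContinuousAt (fun q : ℂ × ℂ => Kint (m q.1) q.2) (0, x 0) :=
      (Kint_joint hm hx0).continuousAt
    have h5 : ContinuousAt (fun ξ : ℂ => ((ξ, x ξ) : ℂ × ℂ)) 0 := continuousAt_id.prodMk hx
    exact ContinuousAt.comp (f := fun ξ : ℂ => ((ξ, x ξ) : ℂ × ℂ)) h4 h5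
  have h4 : Tendsto (fun ξ => -Kint (m ξ) (x ξ) / dslope (Kint K) (x 0) (x ξ)) (𝓝[≠] 0)
      (𝓝 (-Kint (m 0) (x 0) / (K (x 0) * (x 0 - 1)))) :=
    (h3.neg.div h2 hD).mono_left nhdsWithin_le_nhds
  refine h4.congr' ?_
  have h5 : ∀ᶠ ξ in 𝓝[≠] (0 : ℂ), dslope (Kint K) (x 0) (x ξ) ≠ 0 :=
    (h2.mono_left nhdsWithin_le_nhds).eventually_ne hD
  filter_upwards [h5, nhdsWithin_le_nhds hz, self_mem_nhdsWithin] with ξ g1 g2 g3
  have g3' : ξ ^ i ≠ 0 := pow_ne_zero _ g3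
  have g4 := sub_smul_dslope (Kint K) (x 0) (x ξ)
  rw [smul_eq_mul, h0, sub_zero] at g4
  rw [div_eq_div_iff g1 g3', g4]
  linear_combination -g2

/-! ## the homogeneous law -/

theorem hl {b : ℝ} {f : ℂ → ℂ} (hf : AnalyticAt ℂ f 0)
    (hlaw : ∀ᶠ y in 𝓝 (0 : ℂ), f y = (1 + y) ^ ((b : ℂ) + 3) * f (y / (1 + y))) :
    (∀ᶠ y in 𝓝 (0 : ℂ), f y = 0) ∨ ∃ (m : ℕ) (g : ℂ → ℂ), AnalyticAt ℂ g 0 ∧ g 0 ≠ 0 ∧
      (∀ᶠ y in 𝓝 (0 : ℂ), f y = y ^ m * g y) ∧ (m : ℝ) = b + 3 := by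
  by_cases h0 : ∀ᶠ y in 𝓝 (0 : ℂ), f y = 0
  · exact Or.inl h0
  right
  obtain ⟨m, g, hg, hg0, hfg⟩ := hf.exists_eventuallyEq_pow_smul_nonzero_iff.2 h0
  have hfg' : ∀ᶠ y in 𝓝 (0 : ℂ), f y = y ^ m * g y := by
    filter_upwards [hfg] with y hy
    rw [hy, sub_zero, smul_eq_mul]
  refine ⟨m, g, hg, hg0, hfg', ?_⟩
  have hc : ContinuousAt (fun y : ℂ => y / (1 + y)) 0 :=
    continuousAt_id.div (by fun_prop) (by simp)
  have hc' : Tendsto (fun y : ℂ => y / (1 + y)) (𝓝 0) (𝓝 0) := by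
    have := hc.tendsto
    rwa [zero_div] at this
  have hne : ∀ᶠ y : ℂ in 𝓝 0, 1 + y ∈ slitPlane := by
    have h1 : ContinuousAt (fun y : ℂ => 1 + y) 0 := by fun_prop
    exact h1.eventually_mem (isOpen_slitPlane.mem_nhds (by simp))
  -- `g y = (1 + y) ^ (b + 3 - m) * g (y / (1 + y))`
  have h1 : ∀ᶠ y in 𝓝[≠] (0 : ℂ), g y = (1 + y) ^ ((b : ℂ) + 3 - m) * g (y / (1 + y)) := by
    filter_upwards [nhdsWithin_le_nhds hlaw, nhdsWithin_le_nhds hfg',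
      nhdsWithin_le_nhds (hc'.eventually hfg'), nhdsWithin_le_nhds hne,
      self_mem_nhdsWithin] with y g1 g2 g3 g4 g5
    have g6 : (1 : ℂ) + y ≠ 0 := slitPlane_ne_zero g4
    have g7 : y ^ m ≠ 0 := pow_ne_zero _ g5
    rw [g2, g3, div_pow] at g1
    rw [cpow_sub _ _ g6, cpow_natCast]
    have g8 : (1 + y) ^ m ≠ 0 := pow_ne_zero _ g6
    apply mul_left_cancel₀ g7
    rw [g1]
    field_simp
  -- differentiate at `0`
  have h2 : g =ᶠ[𝓝 0] fun y => (1 + y) ^ ((b : ℂ) + 3 - m) * g (y / (1 + y)) := by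
    filter_upwards [eventually_nhdsWithin_iff.1 h1] with y hy
    rcases eq_or_ne y 0 with rfl | h
    · simp
    · exact hy h
  have hgd : HasDerivAt g (deriv g 0) 0 := hg.differentiableAt.hasDerivAt
  have h3 : HasDerivAt (fun y : ℂ => y / (1 + y)) 1 0 := by
    have h4 := (hasDerivAt_id (0 : ℂ)).div ((hasDerivAt_id (0 : ℂ)).const_add 1) (by simp)
    refine h4.congr_deriv ?_
    simp
  have h4 : HasDerivAt (fun y : ℂ => g (y / (1 + y))) (deriv g 0) 0 := by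
    have h5 : HasDerivAt g (deriv g 0) ((0 : ℂ) / (1 + 0)) := by rwa [zero_div]
    have h6 := h5.comp (0 : ℂ) h3
    exact h6.congr_deriv (by ring)
  have h5 : HasDerivAt (fun y : ℂ => (1 + y) ^ ((b : ℂ) + 3 - m)) ((b : ℂ) + 3 - m) 0 := by
    have h6 := ((hasDerivAt_id (0 : ℂ)).const_add 1).cpow_const (c := (b : ℂ) + 3 - m) (by simp)
    refine h6.congr_deriv ?_
    simp
  have h6 := (h5.mul h4).congr_of_eventuallyEq h2
  have h7 := hgd.unique h6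
  simp only [add_zero, one_cpow, zero_div, one_mul] at h7
  have h8 : ((b : ℂ) + 3 - m) * g 0 = 0 := by linear_combination -h7
  have h9 : (b : ℂ) + 3 - m = 0 := (mul_eq_zero.1 h8).resolve_right hg0
  have h10 : (((m : ℝ) : ℂ)) = ((b + 3 : ℝ) : ℂ) := by
    push_cast
    linear_combination -h9
  exact_mod_cast h10

end Vale.Agent.P097.H697
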