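import Vale.Agent.P097.H697.Pow

/-! # P097 / ALG-L1: the linearised law at an end of exponent `-3/2` -/

set_option linter.all false

open Complex Metric Filter Topology Set

namespace Vale.Agent.P097.H697

open Vale.Agent.P097.NZ Vale.Agent.P097.Hol

/-- the perturbation of the kernel -/
noncomputable def mm (N i : ℕ) (c : ℂ) (S : ℂ → ℂ) (η ξ v : ℂ) : ℂ :=
  (1 + η * v) ^ (-3 / 2 : ℂ) * (((1 + η * v) ^ (1 / (N : ℂ))) ^ i *
    S (ξ * (1 + η * v) ^ (1 / (N : ℂ))) * snc (η * ξ ^ N * (v - 1)) +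
    c * (η * ξ ^ (N - i) * (v - 1)) * dslope snc 0 (η * ξ ^ N * (v - 1)))

theorem snc_eq (u : ℂ) : snc u = 1 + u * dslope snc 0 u := by
  have h := sub_smul_dslope snc 0 u
  rw [snc_zero, sub_zero, smul_eq_mul] at h
  rw [h]
  ring

theorem dsnc_diff : Differentiable ℂ (dslope snc 0) := by
  have h : DifferentiableOn ℂ (dslope snc 0) univ :=
    (differentiableOn_dslope (Filter.univ_mem)).2 snc_diff.differentiableOn
  exact differentiableOn_univ.1 h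

variable {N i : ℕ} {c : ℂ} {S R : ℂ → ℂ} {η : ℂ}

theorem slit3 (hη : ‖η‖ < 1 / 4) {v : ℂ} (hv : v ∈ closedBall (0 : ℂ) 3) : 1 + η * v ∈ slitPlane := by
  apply slit_of_norm
  rw [mem_closedBall_zero_iff] at hv
  rw [norm_mul]
  nlinarith [norm_nonneg v, norm_nonneg η]

theorem mm_an (hS : AnalyticAt ℂ S 0) (hη : ‖η‖ < 1 / 4) {v : ℂ} (hv : v ∈ closedBall (0 : ℂ) 3) :
    AnalyticAt ℂ (fun q : ℂ × ℂ => mm N i c S η q.1 q.2) (0, v) := by
  have h1 : AnalyticAt ℂ (fun q : ℂ × ℂ => 1 + η * q.2) (0, v) :=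
    analyticAt_const.add (analyticAt_const.mul analyticAt_snd)
  have h3 : ∀ s : ℂ, AnalyticAt ℂ (fun q : ℂ × ℂ => (1 + η * q.2) ^ s) (0, v) :=
    fun s => h1.cpow analyticAt_const (slit3 hη hv)
  have h4 : AnalyticAt ℂ (fun q : ℂ × ℂ => q.1 * (1 + η * q.2) ^ (1 / (N : ℂ))) (0, v) :=
    analyticAt_fst.mul (h3 _)
  have h5 : AnalyticAt ℂ (fun q : ℂ × ℂ => η * q.1 ^ N * (q.2 - 1)) (0, v) :=
    (analyticAt_const.mul (analyticAt_fst.pow N)).mul (analyticAt_snd.sub analyticAt_const)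
  have h6 : AnalyticAt ℂ (fun q : ℂ × ℂ => η * q.1 ^ (N - i) * (q.2 - 1)) (0, v) :=
    (analyticAt_const.mul (analyticAt_fst.pow _)).mul (analyticAt_snd.sub analyticAt_const)
  have h7 : AnalyticAt ℂ (fun q : ℂ × ℂ => S (q.1 * (1 + η * q.2) ^ (1 / (N : ℂ)))) (0, v) :=
    hS.comp_of_eq h4 (by simp)
  have h8 : AnalyticAt ℂ (fun q : ℂ × ℂ => snc (η * q.1 ^ N * (q.2 - 1))) (0, v) :=
    (snc_an _).comp_of_eq h5 rfl
  have h9 : AnalyticAt ℂ (fun q : ℂ × ℂ => dslope snc 0 (η * q.1 ^ N * (q.2 - 1))) (0, v) :=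
    (dsnc_diff.analyticAt _).comp_of_eq h5 rfl
  exact (h3 _).mul (((((h3 _).pow i).mul h7).mul h8).add ((analyticAt_const.mul h6).mul h9))

theorem mm_zero (hi : 0 < i) (hiN : i < N) (hη : ‖η‖ < 1 / 4) {v : ℂ}
    (hv : v ∈ closedBall (0 : ℂ) 3) :
    mm N i c S η 0 v = S 0 * (1 + η * v) ^ ((2 * i / N - 3) / 2 : ℂ) := by
  have hN : (N : ℂ) ≠ 0 := by
    have : N ≠ 0 := by omega
    exact_mod_cast this
  have hne := slitPlane_ne_zero (slit3 hη hv)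
  have h1 : ((1 + η * v) ^ (1 / (N : ℂ))) ^ i = (1 + η * v) ^ ((i : ℂ) / N) := by
    rw [← cpow_nat_mul]
    congr 1
    ring
  have h2 : (0 : ℂ) ^ N = 0 := zero_pow (by omega)
  have h3 : (0 : ℂ) ^ (N - i) = 0 := zero_pow (by omega)
  have h4 : ((2 * i / N - 3) / 2 : ℂ) = -3 / 2 + i / N := by ring
  rw [h4, cpow_add _ _ hne, mm, h1, h2, h3]
  simp only [mul_zero, zero_mul, add_zero, snc_zero, mul_one]
  ring

theorem ke_eq (hiN : i < N) {ξ v : ℂ}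
    (h : R (ξ * (1 + η * v) ^ (1 / (N : ℂ))) = R 0 + (ξ * (1 + η * v) ^ (1 / (N : ℂ))) ^ i *
      S (ξ * (1 + η * v) ^ (1 / (N : ℂ)))) :
    ke N (-3 / 2) R (ξ, η) v =
      (1 + η * v) ^ (-3 / 2 : ℂ) * R 0 + ξ ^ i * mm N i (R 0) S η ξ v := by
  have h1 : ξ ^ N = ξ ^ i * ξ ^ (N - i) := by
    rw [← pow_add]
    congr 1
    omega
  simp only [ke, mm]
  rw [h, mul_pow, snc_eq (η * ξ ^ N * (v - 1))]
  simp only [h1]
  ring

/-- the eventual equation of the root in the perturbed form -/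
theorem root_eqn (hi : 0 < i) (hiN : i < N) (hS : AnalyticAt ℂ S 0)
    (hRS : ∀ᶠ ξ in 𝓝 (0 : ℂ), R ξ = R 0 + ξ ^ i * S ξ) (hη : ‖η‖ < 1 / 4) {x : ℂ → ℂ}
    (hx : ∀ᶠ ξ in 𝓝 (0 : ℂ), ‖x ξ‖ ≤ 3)
    (hz : ∀ᶠ ξ in 𝓝 (0 : ℂ), Kint (ke N (-3 / 2) R (ξ, η)) (x ξ) = 0) :
    ∀ᶠ ξ in 𝓝 (0 : ℂ), Kint (fun v => (1 + η * v) ^ (-3 / 2 : ℂ) * R 0) (x ξ) +
      ξ ^ i * Kint (mm N i (R 0) S η ξ) (x ξ) = 0 := by
  have hK : ContinuousOn (fun v : ℂ => (1 + η * v) ^ (-3 / 2 : ℂ) * R 0) (closedBall 0 3) := by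
    intro v hv
    have h1 : ContinuousAt (fun v : ℂ => 1 + η * v) v := by fun_prop
    exact ((h1.cpow continuousAt_const (slit3 hη hv)).mul continuousAt_const).continuousWithinAt
  have h1 : ∀ᶠ ξ in 𝓝 (0 : ℂ), ∀ v ∈ closedBall (0 : ℂ) 3,
      AnalyticAt ℂ (fun q : ℂ × ℂ => mm N i (R 0) S η q.1 q.2) (ξ, v) :=
    (isCompact_closedBall (0 : ℂ) 3).eventually_forall_of_forall_eventually
      (P := fun ξ v => AnalyticAt ℂ (fun q : ℂ × ℂ => mm N i (R 0) S η q.1 q.2) (ξ, v))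
      fun v hv => (mm_an hS hη hv).eventually_analyticAt
  have h2 : ∀ᶠ ξ in 𝓝 (0 : ℂ), ∀ v ∈ closedBall (0 : ℂ) 3,
      R (ξ * (1 + η * v) ^ (1 / (N : ℂ))) = R 0 + (ξ * (1 + η * v) ^ (1 / (N : ℂ))) ^ i *
      S (ξ * (1 + η * v) ^ (1 / (N : ℂ))) := by
    refine (isCompact_closedBall (0 : ℂ) 3).eventually_forall_of_forall_eventually
      (P := fun ξ v => R (ξ * (1 + η * v) ^ (1 / (N : ℂ))) =
        R 0 + (ξ * (1 + η * v) ^ (1 / (N : ℂ))) ^ i * S (ξ * (1 + η * v) ^ (1 / (N : ℂ))))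
      fun v hv => ?_
    have h3 : ContinuousAt (fun q : ℂ × ℂ => q.1 * (1 + η * q.2) ^ (1 / (N : ℂ))) (0, v) := by
      have h4 : ContinuousAt (fun q : ℂ × ℂ => 1 + η * q.2) (0, v) := by fun_prop
      exact continuousAt_fst.mul (h4.cpow continuousAt_const (slit3 hη hv))
    have h5 : Tendsto (fun q : ℂ × ℂ => q.1 * (1 + η * q.2) ^ (1 / (N : ℂ))) (𝓝 (0, v)) (𝓝 0) := by
      have := h3.tendsto
      simpa using this
    exact h5.eventually hRS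
  filter_upwards [h1, h2, hx, hz] with ξ g1 g2 g3 g4
  have hm : ContinuousOn (mm N i (R 0) S η ξ) (closedBall 0 3) := by
    intro v hv
    have h3 : ContinuousAt (fun v : ℂ => ((ξ, v) : ℂ × ℂ)) v := by fun_prop
    exact (ContinuousAt.comp (f := fun v : ℂ => ((ξ, v) : ℂ × ℂ)) (g1 v hv).continuousAt
      h3).continuousWithinAt
  rw [← Kint_add_mul hK hm g3]
  exact (H65.Kint_congr g3 fun v hv => (ke_eq hiN (g2 v hv)).symm).trans g4

/-- the limit of `(x_ξ - x_0) / ξ ^ i` -/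
theorem root_lim (hi : 0 < i) (hiN : i < N) (hS : AnalyticAt ℂ S 0) (h0 : R 0 ≠ 0)
    (hRS : ∀ᶠ ξ in 𝓝 (0 : ℂ), R ξ = R 0 + ξ ^ i * S ξ) (hη : ‖η‖ < 1 / 4) {x : ℂ → ℂ}
    (hx : ContinuousAt x 0) (hx0 : x 0 = 2 + η)
    (hz : ∀ᶠ ξ in 𝓝 (0 : ℂ), Kint (ke N (-3 / 2) R (ξ, η)) (x ξ) = 0) :
    Tendsto (fun ξ => (x ξ - (2 + η)) / ξ ^ i) (𝓝[≠] 0)
      (𝓝 (-(S 0 * Kint (fun v => (1 + η * v) ^ ((2 * i / N - 3) / 2 : ℂ)) (2 + η)) *
        (1 + η) ^ 2 / R 0)) := by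
  have hη1 : ‖η‖ < 1 := by linarith
  have hne : (1 : ℂ) + η ≠ 0 := slitPlane_ne_zero (slit_of_norm hη1)
  have hn : ‖x 0‖ < 5 / 2 := by
    rw [hx0]
    have := norm_add_le 2 η
    have h2 : ‖(2 : ℂ)‖ = 2 := by simp
    rw [h2] at this
    linarith
  have hn3 : ∀ᶠ ξ in 𝓝 (0 : ℂ), ‖x ξ‖ ≤ 3 := by
    filter_upwards [hx.norm.eventually_lt_const hn] with ξ h
    linarith
  have hval : (1 + η * x 0) ^ (-3 / 2 : ℂ) * R 0 * (x 0 - 1) = R 0 / (1 + η) ^ 2 := by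
    rw [hx0, one_add_mul, sq_cpow hη1]
    have e1 : (2 : ℂ) * (-3 / 2) = -((3 : ℕ) : ℂ) := by norm_num
    rw [e1, cpow_neg, cpow_natCast]
    field_simp
    ring
  have h1 := tendsto_root (K := fun v : ℂ => (1 + η * v) ^ (-3 / 2 : ℂ) * R 0)
    (m := mm N i (R 0) S η) (x := x) hi.ne' (fun v hv => by
      have h1 : AnalyticAt ℂ (fun v : ℂ => 1 + η * v) v :=
        analyticAt_const.add (analyticAt_const.mul analyticAt_id)
      exact (h1.cpow analyticAt_const (slit3 hη hv)).mul analyticAt_const)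
    (fun v hv => mm_an hS hη hv) hx hn (root_eqn hi hiN hS hRS hη hn3 hz) (by
      rw [hval]
      exact div_ne_zero h0 (pow_ne_zero _ hne))
  rw [hval, hx0] at h1
  have h2 : Kint (mm N i (R 0) S η 0) (2 + η) =
      S 0 * Kint (fun v => (1 + η * v) ^ ((2 * i / N - 3) / 2 : ℂ)) (2 + η) := by
    rw [hx0] at hn
    have h3 : Kint (mm N i (R 0) S η 0) (2 + η) =
        Kint (fun v => S 0 * (1 + η * v) ^ ((2 * i / N - 3) / 2 : ℂ)) (2 + η) :=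
      H65.Kint_congr (by linarith) fun v hv => mm_zero hi hiN hη hv
    rw [h3]
    unfold Kint
    rw [← intervalIntegral.integral_const_mul]
    refine intervalIntegral.integral_congr fun s hs => ?_
    show (2 + η) * (S 0 * (1 + η * (s * (2 + η))) ^ ((2 * i / N - 3) / 2 : ℂ) *
      (s * (2 + η) - 1)) = S 0 * ((2 + η) * ((1 + η * (s * (2 + η))) ^
        ((2 * i / N - 3) / 2 : ℂ) * (s * (2 + η) - 1)))
    ring
  rw [h2] at h1
  have h3 : -(S 0 * Kint (fun v => (1 + η * v) ^ ((2 * i / N - 3) / 2 : ℂ)) (2 + η)) *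
      (1 + η) ^ 2 / R 0 = -(S 0 * Kint (fun v => (1 + η * v) ^ ((2 * i / N - 3) / 2 : ℂ))
        (2 + η)) / (R 0 / (1 + η) ^ 2) := by
    field_simp
  rw [h3]
  exact h1

/-- the base function in the variable `x` -/
noncomputable def GG (c η x : ℂ) : ℂ :=
  (1 + η * x) ^ (3 / 2 : ℂ) * (c * (2 / 3) * (η * (x - 1) / (1 + η * x)) ^ 3)

theorem GG_base (hη : ‖η‖ < 1 / 4) : GG c η (2 + η) = c * (2 / 3) * η ^ 3 := by
  have hη1 : ‖η‖ < 1 := by linarith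
  have hne : (1 : ℂ) + η ≠ 0 := slitPlane_ne_zero (slit_of_norm hη1)
  rw [GG, one_add_mul, sq_cpow hη1]
  have e1 : (2 : ℂ) * (3 / 2) = ((3 : ℕ) : ℂ) := by norm_num
  rw [e1, cpow_natCast]
  field_simp
  ring

theorem GG_deriv (hη : ‖η‖ < 1 / 4) :
    HasDerivAt (GG c η) (c * η ^ 3 * (2 + η) / (1 + η) ^ 2) (2 + η) := by
  have hη1 : ‖η‖ < 1 := by linarith
  have hne : (1 : ℂ) + η ≠ 0 := slitPlane_ne_zero (slit_of_norm hη1)
  have hs : 1 + η * (2 + η) ∈ slitPlane := by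
    have h := seg_slit hη (s := 1) (by simp)
    simpa using h
  have h1 : HasDerivAt (fun x : ℂ => 1 + η * x) η (2 + η) := by
    simpa using ((hasDerivAt_id (2 + η : ℂ)).const_mul η).const_add 1
  have h2 : HasDerivAt (fun x : ℂ => (1 + η * x) ^ (3 / 2 : ℂ))
      (3 / 2 * (1 + η * (2 + η)) ^ (3 / 2 - 1 : ℂ) * η) (2 + η) := h1.cpow_const hs
  have h3 : HasDerivAt (fun x : ℂ => η * (x - 1)) η (2 + η) := by
    simpa using ((hasDerivAt_id (2 + η : ℂ)).sub_const 1).const_mul η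
  have h4 := (h3.div h1 (slitPlane_ne_zero hs)).pow 3
  have h5 := h2.mul (h4.const_mul (c * (2 / 3)))
  refine h5.congr_deriv ?_
  have e1 : (2 : ℂ) * (3 / 2) = ((3 : ℕ) : ℂ) := by norm_num
  have e2 : (2 : ℂ) * (3 / 2 - 1) = ((1 : ℕ) : ℂ) := by norm_num
  simp only [Pi.pow_apply, Pi.div_apply, one_add_mul, sq_cpow hη1, e1, e2, cpow_natCast]
  push_cast
  field_simp
  ring

end Vale.Agent.P097.H697
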