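import Vale.Agent.P097.H697.Lin

/-! # P097 / ALG-L1: the linearised law at an end of exponent `-3/2`, conclusion -/

set_option linter.all false

open Complex Metric Filter Topology Set

namespace Vale.Agent.P097.H697

open Vale.Agent.P097.NZ Vale.Agent.P097.Hol

variable {N i : ℕ} {S R : ℂ → ℂ}

/-- the linearised law -/
theorem lin (A : RootA) (hi : 0 < i) (hiN : i < N) (hR : AnalyticAt ℂ R 0) (h0 : R 0 ≠ 0)
    (hS : AnalyticAt ℂ S 0) (hRS : ∀ᶠ ξ in 𝓝 (0 : ℂ), R ξ = R 0 + ξ ^ i * S ξ)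
    {L Q : ℂ × ℂ → ℂ} (hQ : AnalyticAt ℂ Q (0, 0))
    (hL : ∀ᶠ p in 𝓝 ((0, 0) : ℂ × ℂ), rr N (-3 / 2) R p ^ (3 / 2 : ℂ) * L (Te N (-3 / 2) R p) = L p)
    (hLQ : ∀ᶠ p in 𝓝 ((0, 0) : ℂ × ℂ), L p = R 0 * (2 / 3) * p.2 ^ 3 + p.1 ^ i * Q (p.2, p.1)) :
    ∀ᶠ y in 𝓝 (0 : ℂ), Q (y, 0) - (1 + y) ^ (2 * i / N + 3 : ℂ) * Q (y / (1 + y), 0) =
      -(S 0 * (y ^ 3 * (2 + y) *
        Kint (fun v => (1 + y * v) ^ ((2 * i / N - 3) / 2 : ℂ)) (2 + y))) := by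
  have hNc : (N : ℂ) ≠ 0 := by
    have : N ≠ 0 := by omega
    exact_mod_cast this
  -- the facts near the origin
  have f1 := ev_slice hL
  have f2 := ev_slice hLQ
  have f3 : ∀ᶠ p in 𝓝 ((0, 0) : ℂ × ℂ), L (Te N (-3 / 2) R p) =
      R 0 * (2 / 3) * (Te N (-3 / 2) R p).2 ^ 3 +
        (Te N (-3 / 2) R p).1 ^ i * Q ((Te N (-3 / 2) R p).2, (Te N (-3 / 2) R p).1) := by
    have h1 : Tendsto (Te N (-3 / 2) R) (𝓝 (0, 0)) (𝓝 (0, 0)) := by
      have := (Te_an (N := N) (σ := -3 / 2) A hR h0).continuousAt.tendsto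
      rwa [Te_axis] at this
    exact h1.eventually hLQ
  have f3 := ev_slice f3
  have f4 := ev_slice ((A (ke N (-3 / 2) R) (0, 0) (R 0) h0 (fun v _ => ke_an hR v)
    (fun v _ => ke_axis v)).2.2)
  have f5 := ev_axis ((re_an (N := N) (σ := -3 / 2) A hR h0).eventually_analyticAt)
  have f6 := re_base A (by omega : 1 ≤ N) hR h0
  have f7 : ∀ᶠ y in 𝓝 (0 : ℂ), ContinuousAt Q (y, 0) := by
    filter_upwards [eventually_axis hQ.eventually_analyticAt] with y hy using hy.continuousAt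
  have f8 : ∀ᶠ y in 𝓝 (0 : ℂ), ContinuousAt Q (y / (1 + y), 0) := by
    have h1 : Tendsto (fun y : ℂ => y / (1 + y)) (𝓝 0) (𝓝 0) := by
      have h2 : ContinuousAt (fun y : ℂ => y / (1 + y)) 0 :=
        continuousAt_id.div (by fun_prop) (by simp)
      have := h2.tendsto
      rwa [zero_div] at this
    exact h1.eventually f7
  filter_upwards [f1, f2, f3, f4, f5, f6, f7, f8,
    ball_mem_nhds (0 : ℂ) (by norm_num : (0 : ℝ) < 1 / 4)] with η g1 g2 g3 g4 g5 g6 g7 g8 g9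
  rw [mem_ball_zero_iff] at g9
  have hη1 : ‖η‖ < 1 := by linarith
  have hne : (1 : ℂ) + η ≠ 0 := slitPlane_ne_zero (slit_of_norm hη1)
  set x : ℂ → ℂ := fun ξ => re N (-3 / 2) R (ξ, η) with hx
  have hxc : ContinuousAt x 0 := (analyticAt_pair g5).continuousAt
  have hx0 : x 0 = 2 + η := g6
  have hX := root_lim hi hiN hS h0 hRS g9 hxc hx0 (by
    filter_upwards [g4] with ξ h using h.2.1)
  set J : ℂ := Kint (fun v => (1 + η * v) ^ ((2 * i / N - 3) / 2 : ℂ)) (2 + η) with hJ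
  have hxt : Tendsto x (𝓝 0) (𝓝 (2 + η)) := by
    have := hxc.tendsto
    rwa [hx0] at this
  have hG := tendsto_quot (GG_deriv (c := R 0) g9) (hxt.mono_left nhdsWithin_le_nhds) hX
  -- the other side
  have hs : 1 + η * (2 + η) ∈ slitPlane := by
    have h := seg_slit g9 (s := 1) (by simp)
    simpa using h
  have hr : Tendsto (fun ξ => 1 + η * x ξ) (𝓝 0) (𝓝 (1 + η * (2 + η))) :=
    tendsto_const_nhds.add (tendsto_const_nhds.mul hxt)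
  have hrc : ∀ c : ℂ, Tendsto (fun ξ => (1 + η * x ξ) ^ c) (𝓝 0) (𝓝 ((1 + η * (2 + η)) ^ c)) :=
    fun c => hr.cpow tendsto_const_nhds hs
  have h1 : Tendsto (fun ξ => Q (η, ξ)) (𝓝 0) (𝓝 (Q (η, 0))) := by
    have h2 : ContinuousAt (fun ξ : ℂ => ((η, ξ) : ℂ × ℂ)) 0 := by fun_prop
    exact ContinuousAt.comp (f := fun ξ : ℂ => ((η, ξ) : ℂ × ℂ)) g7 h2
  have h2 : Tendsto (fun ξ => Q (η * (x ξ - 1) / (1 + η * x ξ),
      ξ * (1 + η * x ξ) ^ (1 / (N : ℂ)))) (𝓝 0) (𝓝 (Q (η / (1 + η), 0))) := by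
    have h3 : Tendsto (fun ξ => η * (x ξ - 1) / (1 + η * x ξ)) (𝓝 0) (𝓝 (η / (1 + η))) := by
      have h4 := (tendsto_const_nhds (x := η)).mul (hxt.sub_const 1) |>.div hr
        (slitPlane_ne_zero hs)
      have h5 : η * (2 + η - 1) / (1 + η * (2 + η)) = η / (1 + η) := by
        rw [one_add_mul]
        field_simp
        ring
      rwa [h5] at h4
    have h4 : Tendsto (fun ξ => ξ * (1 + η * x ξ) ^ (1 / (N : ℂ))) (𝓝 0) (𝓝 0) := by
      have := tendsto_id.mul (hrc (1 / (N : ℂ)))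
      rw [zero_mul] at this
      exact this
    exact g8.tendsto.comp (h3.prodMk_nhds h4)
  have h3 : Tendsto (fun ξ => Q (η, ξ) - (1 + η * x ξ) ^ (3 / 2 : ℂ) *
      ((1 + η * x ξ) ^ (1 / (N : ℂ))) ^ i * Q (η * (x ξ - 1) / (1 + η * x ξ),
        ξ * (1 + η * x ξ) ^ (1 / (N : ℂ)))) (𝓝 0)
      (𝓝 (Q (η, 0) - (1 + η * (2 + η)) ^ (3 / 2 : ℂ) *
        ((1 + η * (2 + η)) ^ (1 / (N : ℂ))) ^ i * Q (η / (1 + η), 0))) :=
    h1.sub (((hrc _).mul ((hrc _).pow i)).mul h2)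
  have h4 : (fun ξ => (GG (R 0) η (x ξ) - GG (R 0) η (2 + η)) / ξ ^ i) =ᶠ[𝓝[≠] 0]
      fun ξ => Q (η, ξ) - (1 + η * x ξ) ^ (3 / 2 : ℂ) *
      ((1 + η * x ξ) ^ (1 / (N : ℂ))) ^ i * Q (η * (x ξ - 1) / (1 + η * x ξ),
        ξ * (1 + η * x ξ) ^ (1 / (N : ℂ))) := by
    filter_upwards [nhdsWithin_le_nhds g1, nhdsWithin_le_nhds g2, nhdsWithin_le_nhds g3,
      self_mem_nhdsWithin] with ξ e1 e2 e3 e4
    have e4' : ξ ^ i ≠ 0 := pow_ne_zero _ e4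
    rw [e3, e2, Te_eq] at e1
    simp only [rr] at e1
    rw [div_eq_iff e4', GG_base g9, GG]
    simp only [hx]
    rw [mul_pow] at e1
    linear_combination e1
  have h5 := tendsto_nhds_unique (hG.congr' h4) (h3.mono_left nhdsWithin_le_nhds)
  have h6 : (1 + η * (2 + η)) ^ (3 / 2 : ℂ) * ((1 + η * (2 + η)) ^ (1 / (N : ℂ))) ^ i =
      (1 + η) ^ (2 * i / N + 3 : ℂ) := by
    rw [one_add_mul, sq_cpow hη1, sq_cpow hη1, ← cpow_nat_mul, ← cpow_add _ _ hne]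
    congr 1
    ring
  rw [h6] at h5
  rw [← h5]
  field_simp

end Vale.Agent.P097.H697
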