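import Vale.Agent.P097.H697.Kit

/-! # P097 / ALG-L1: powers, explicit integrals, the root at the end of exponent `-3/2` -/

set_option linter.all false

open Complex Metric Filter Topology Set

namespace Vale.Agent.P097.H697

open Vale.Agent.P097.NZ Vale.Agent.P097.Hol

theorem slit_of_norm {y : ℂ} (hy : ‖y‖ < 1) : 1 + y ∈ slitPlane := by
  refine Or.inl ?_
  rw [add_re, one_re]
  have := Complex.abs_re_le_norm y
  have := neg_abs_le y.re
  linarith

theorem re_pos_of_norm {y : ℂ} (hy : ‖y‖ < 1) : 0 < (1 + y).re := by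
  rw [add_re, one_re]
  have := Complex.abs_re_le_norm y
  have := neg_abs_le y.re
  linarith

/-- powers of squares -/
theorem sq_cpow {y : ℂ} (hy : ‖y‖ < 1) (a : ℂ) : ((1 + y) ^ 2) ^ a = (1 + y) ^ (2 * a) := by
  have h1 := (abs_arg_lt_pi_div_two_iff (z := 1 + y)).2 (Or.inl (re_pos_of_norm hy))
  rw [abs_lt] at h1
  have h2 := cpow_nat_mul' (x := 1 + y) (n := 2) (by push_cast; linarith) (by push_cast; linarith) a
  rw [← h2]
  push_cast
  rfl

/-- explicit value of the integral for the power kernels -/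
theorem Kint_pow {a y x : ℂ} (hy : y ≠ 0) (ha1 : a + 1 ≠ 0) (ha2 : a + 2 ≠ 0)
    (hs : ∀ s ∈ Icc (0 : ℝ) 1, 1 + y * (s * x) ∈ slitPlane) :
    Kint (fun v => (1 + y * v) ^ a) x = 1 / y ^ 2 * (((1 + y * x) ^ (a + 2) - 1) / (a + 2) -
      (1 + y) * (((1 + y * x) ^ (a + 1) - 1) / (a + 1))) := by
  rw [Kint_prim (P := fun v => 1 / y ^ 2 * ((1 + y * v) ^ (a + 2) / (a + 2) -
    (1 + y) * ((1 + y * v) ^ (a + 1) / (a + 1))))]
  · simp only [mul_zero, add_zero, one_cpow]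
    ring
  · intro s hs'
    have h0 := hs s hs'
    have hne := slitPlane_ne_zero h0
    have h1 : HasDerivAt (fun v : ℂ => 1 + y * v) y (s * x) := by
      simpa using ((hasDerivAt_id (s * x : ℂ)).const_mul y).const_add 1
    have h2 : ∀ c : ℂ, HasDerivAt (fun v : ℂ => (1 + y * v) ^ c)
        (c * (1 + y * (s * x)) ^ (c - 1) * y) (s * x) := fun c => h1.cpow_const h0
    have h3 := (((h2 (a + 2)).div_const (a + 2)).sub
      (((h2 (a + 1)).div_const (a + 1)).const_mul (1 + y))).const_mul (1 / y ^ 2)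
    refine h3.congr_deriv ?_
    have e1 : a + 2 - 1 = a + 1 := by ring
    have e2 : a + 1 - 1 = a := by ring
    rw [e1, e2, cpow_add _ _ hne, cpow_one]
    field_simp
    ring
  · intro s hs'
    have h1 : ContinuousAt (fun s : ℝ => 1 + y * ((s : ℂ) * x)) s := by fun_prop
    exact (h1.cpow continuousAt_const (hs s hs')).continuousWithinAt

/-- explicit value of the integral for the kernel `(1 + y v)⁻¹` -/
theorem Kint_inv {y x : ℂ} (hy : y ≠ 0)
    (hs : ∀ s ∈ Icc (0 : ℝ) 1, 1 + y * (s * x) ∈ slitPlane) :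
    Kint (fun v => (1 + y * v) ^ (-1 : ℂ)) x =
      1 / y ^ 2 * (y * x - (1 + y) * Complex.log (1 + y * x)) := by
  rw [Kint_prim (P := fun v => 1 / y ^ 2 * ((1 + y * v) - (1 + y) * Complex.log (1 + y * v)))]
  · simp only [mul_zero, add_zero, log_one]
    ring
  · intro s hs'
    have h0 := hs s hs'
    have hne := slitPlane_ne_zero h0
    have h1 : HasDerivAt (fun v : ℂ => 1 + y * v) y (s * x) := by
      simpa using ((hasDerivAt_id (s * x : ℂ)).const_mul y).const_add 1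
    have h3 := (h1.sub ((h1.clog h0).const_mul (1 + y))).const_mul (1 / y ^ 2)
    refine h3.congr_deriv ?_
    rw [cpow_neg_one]
    have hne' : 1 + y * s * x ≠ 0 := by
      rw [mul_assoc]
      exact hne
    field_simp
    ring
  · intro s hs'
    have h1 : ContinuousAt (fun s : ℝ => 1 + y * ((s : ℂ) * x)) s := by fun_prop
    exact (h1.cpow continuousAt_const (hs s hs')).continuousWithinAt

theorem seg_slit {y : ℂ} (hy : ‖y‖ < 1 / 4) {s : ℝ} (hs : s ∈ Icc (0 : ℝ) 1) :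
    1 + y * (s * (2 + y)) ∈ slitPlane := by
  apply slit_of_norm
  rw [norm_mul, norm_mul, Complex.norm_real, Real.norm_of_nonneg hs.1]
  have h1 : ‖2 + y‖ ≤ 2 + ‖y‖ := by
    have := norm_add_le 2 y
    have h2 : ‖(2 : ℂ)‖ = 2 := by simp
    rwa [h2] at this
  have h2 : s * ‖2 + y‖ ≤ 1 * (2 + ‖y‖) := by
    gcongr
    exact hs.2
  nlinarith [norm_nonneg y, norm_nonneg (2 + y), hs.1]

theorem one_add_mul (y : ℂ) : 1 + y * (2 + y) = (1 + y) ^ 2 := by ring

/-- the root of the unperturbed equation -/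
theorem Kint_base {y : ℂ} (hy : ‖y‖ < 1 / 4) (c : ℂ) :
    Kint (fun v => (1 + y * v) ^ (-3 / 2 : ℂ) * c) (2 + y) = 0 := by
  rcases eq_or_ne y 0 with rfl | h0
  · have h1 : Kint (fun v => (1 + (0 : ℂ) * v) ^ (-3 / 2 : ℂ) * c) (2 + 0) =
        Kint (fun _ => c) (2 + 0) := by
      congr 1
      funext v
      simp
    rw [h1, H65.Kint_fun_const]
    ring
  · have hy1 : ‖y‖ < 1 := by linarith
    have h1 : Kint (fun v => (1 + y * v) ^ (-3 / 2 : ℂ) * c) (2 + y) =
        c * Kint (fun v => (1 + y * v) ^ (-3 / 2 : ℂ)) (2 + y) := by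
      unfold Kint
      rw [← intervalIntegral.integral_const_mul]
      refine intervalIntegral.integral_congr fun s hs => ?_
      show (2 + y) * ((1 + y * (s * (2 + y))) ^ (-3 / 2 : ℂ) * c * (s * (2 + y) - 1)) =
        c * ((2 + y) * ((1 + y * (s * (2 + y))) ^ (-3 / 2 : ℂ) * (s * (2 + y) - 1)))
      ring
    rw [h1, Kint_pow h0 (by norm_num) (by norm_num) fun s hs => seg_slit hy hs, one_add_mul,
      sq_cpow hy1, sq_cpow hy1]
    have e1 : (2 : ℂ) * (-3 / 2 + 2) = 1 := by norm_num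
    have e2 : (2 : ℂ) * (-3 / 2 + 1) = -1 := by norm_num
    rw [e1, e2, cpow_one, cpow_neg_one]
    have h2 : (1 : ℂ) + y ≠ 0 := slitPlane_ne_zero (slit_of_norm hy1)
    field_simp
    ring

/-! ## slices -/

theorem ev_slice {P : ℂ × ℂ → Prop} (h : ∀ᶠ p in 𝓝 ((0, 0) : ℂ × ℂ), P p) :
    ∀ᶠ η in 𝓝 (0 : ℂ), ∀ᶠ ξ in 𝓝 (0 : ℂ), P (ξ, η) := by
  obtain ⟨r, hr, h1⟩ := exists_polydisc h
  filter_upwards [ball_mem_nhds (0 : ℂ) hr] with η hη
  filter_upwards [ball_mem_nhds (0 : ℂ) hr] with ξ hξ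
  exact h1 ξ hξ η hη

theorem ev_axis {P : ℂ × ℂ → Prop} (h : ∀ᶠ p in 𝓝 ((0, 0) : ℂ × ℂ), P p) :
    ∀ᶠ η in 𝓝 (0 : ℂ), P (0, η) := by
  filter_upwards [ev_slice h] with η hη using hη.self_of_nhds

variable {N : ℕ} {R : ℂ → ℂ}

theorem re_base (A : RootA) (hN : 1 ≤ N) (hR : AnalyticAt ℂ R 0) (h0 : R 0 ≠ 0) :
    ∀ᶠ y in 𝓝 (0 : ℂ), re N (-3 / 2) R (0, y) = 2 + y := by
  have h1 := (A (ke N (-3 / 2) R) (0, 0) (R 0) h0 (fun v _ => ke_an hR v)
    (fun v _ => ke_axis v)).2.2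
  filter_upwards [ev_axis h1, ball_mem_nhds (0 : ℂ) (by norm_num : (0 : ℝ) < 1 / 4)] with y h2 h3
  rw [mem_ball_zero_iff] at h3
  refine (h2.2.2 (2 + y) ?_ ?_).symm
  · rw [mem_ball, dist_eq_norm, add_sub_cancel_left]
    exact h3
  · have h4 : ke N (-3 / 2) R (0, y) = fun v => (1 + y * v) ^ (-3 / 2 : ℂ) * R 0 := by
      funext v
      simp only [ke, zero_mul, zero_pow (by omega : N ≠ 0), mul_zero, snc_zero, mul_one]
    rw [h4]
    exact Kint_base h3 _

end Vale.Agent.P097.H697
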